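import Vale.Agent.P070.Hilb

/-! Excising sequences of projections. -/

namespace Vale.Agent.P070

open scoped InnerProductSpace
open Filter Topology

section
variable {B : Type*} [NormedRing B] [StarRing B] [CStarRing B] [NormedAlgebra ℂ B]
  [StarModule ℂ B]

structure Dec (q : ℕ → B) : Prop where
  proj : ∀ n, IsStarProjection (q n)
  mono : ∀ n m, n ≤ m → q m * q n = q m

def Exc (q : ℕ → B) (a : B) : Prop :=
  ∀ ε : ℝ, 0 < ε → ∃ (c : ℂ) (N : ℕ), ‖q N * a * q N - c • q N‖ ≤ ε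

structure Good (q : ℕ → B) : Prop extends Dec q where
  ne : ∀ n, q n ≠ 0
  exc : ∀ a, Exc q a

def Orth (q r : ℕ → B) : Prop :=
  ∀ (d : B) (ε : ℝ), 0 < ε → ∃ N, ‖q N * d * r N‖ ≤ ε

lemma Dec.mono' {q : ℕ → B} (h : Dec q) (n m : ℕ) (hnm : n ≤ m) : q n * q m = q m := by
  have := congrArg star (h.mono n m hnm)
  rwa [star_mul, (h.proj n).isSelfAdjoint.star_eq, (h.proj m).isSelfAdjoint.star_eq] at this

lemma norm_pl {e : B} (he : IsStarProjection e) (a : B) : ‖e * a‖ ≤ ‖a‖ :=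
  (norm_mul_le _ _).trans (mul_le_of_le_one_left (norm_nonneg _) he.norm_le)

lemma norm_pr {e : B} (he : IsStarProjection e) (a : B) : ‖a * e‖ ≤ ‖a‖ :=
  (norm_mul_le _ _).trans (mul_le_of_le_one_right (norm_nonneg _) he.norm_le)

lemma Dec.exc_mono {q : ℕ → B} (h : Dec q) (a : B) (c : ℂ) {N M : ℕ} (hNM : N ≤ M) :
    ‖q M * a * q M - c • q M‖ ≤ ‖q N * a * q N - c • q N‖ := by
  have : q M * a * q M - c • q M = q M * (q N * a * q N - c • q N) * q M := by
    rw [mul_sub, sub_mul, mul_smul_comm, smul_mul_assoc, h.mono N M hNM,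
      (h.proj M).isIdempotentElem.eq, ← mul_assoc, ← mul_assoc, h.mono N M hNM,
      mul_assoc _ (q N), h.mono' N M hNM]
  rw [this]
  exact (norm_pr (h.proj M) _).trans (norm_pl (h.proj M) _)

lemma Dec.orth_mono {q r : ℕ → B} (hq : Dec q) (hr : Dec r) (a : B) {N M M' : ℕ} (h : N ≤ M)
    (h' : N ≤ M') : ‖q M * a * r M'‖ ≤ ‖q N * a * r N‖ := by
  have : q M * a * r M' = q M * (q N * a * r N) * r M' := by
    rw [← mul_assoc, ← mul_assoc, hq.mono N M h, mul_assoc _ (r N), hr.mono' N M' h']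
  rw [this]
  exact (norm_pr (hr.proj M') _).trans (norm_pl (hq.proj M) _)

lemma Exc.zero (q : ℕ → B) : Exc q 0 := fun ε hε => ⟨0, 0, by simpa using hε.le⟩

lemma Exc.add {q : ℕ → B} (h : Dec q) {a b : B} (ha : Exc q a) (hb : Exc q b) : Exc q (a + b) := by
  intro ε hε
  obtain ⟨c, N, h1⟩ := ha (ε / 2) (by positivity)
  obtain ⟨c', N', h2⟩ := hb (ε / 2) (by positivity)
  refine ⟨c + c', max N N', ?_⟩
  have e : q (max N N') * (a + b) * q (max N N') - (c + c') • q (max N N') =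
      (q (max N N') * a * q (max N N') - c • q (max N N')) +
      (q (max N N') * b * q (max N N') - c' • q (max N N')) := by
    rw [mul_add, add_mul, add_smul]; abel
  rw [e]
  have := h.exc_mono a c (le_max_left N N')
  have := h.exc_mono b c' (le_max_right N N')
  exact (norm_add_le _ _).trans (by linarith)

lemma Exc.smul {q : ℕ → B} {a : B} (ha : Exc q a) (t : ℂ) : Exc q (t • a) := by
  intro ε hε
  obtain ⟨c, N, h1⟩ := ha (ε / (‖t‖ + 1)) (by positivity)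
  refine ⟨t * c, N, ?_⟩
  rw [mul_smul_comm, smul_mul_assoc, mul_smul, ← smul_sub, norm_smul]
  rw [le_div_iff₀ (by positivity)] at h1
  nlinarith [norm_nonneg (q N * a * q N - c • q N), norm_nonneg t]

lemma Orth.symm {q r : ℕ → B} (hq : Dec q) (hr : Dec r) (h : Orth q r) : Orth r q := by
  intro d ε hε
  obtain ⟨N, hN⟩ := h (star d) ε hε
  refine ⟨N, ?_⟩
  rwa [← norm_star, star_mul, star_mul, (hq.proj N).isSelfAdjoint.star_eq,
    (hr.proj N).isSelfAdjoint.star_eq, star_star, ← mul_assoc] at hN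

lemma exists_family (B : Type*) [NormedRing B] [StarRing B] [CStarRing B] [NormedAlgebra ℂ B]
    [StarModule ℂ B] : ∃ F : Set (ℕ → B), (∀ q ∈ F, Good q) ∧ F.Pairwise Orth ∧
      ∀ r, Good r → r ∈ F ∨ ∃ q ∈ F, ¬ Orth q r := by
  obtain ⟨F, hF⟩ := zorn_subset {F : Set (ℕ → B) | (∀ q ∈ F, Good q) ∧ F.Pairwise Orth} (by
    intro c hc hch
    refine ⟨⋃₀ c, ⟨?_, ?_⟩, fun s hs => Set.subset_sUnion_of_mem hs⟩
    · rintro q ⟨s, hs, hq⟩
      exact (hc hs).1 q hq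
    · exact hch.pairwise_sUnion.2 fun s hs => (hc hs).2)
  refine ⟨F, hF.prop.1, hF.prop.2, fun r hr => ?_⟩
  by_contra hcon
  push Not at hcon
  apply hcon.1
  have : insert r F ⊆ F := by
    apply hF.le_of_ge ⟨?_, ?_⟩ (Set.subset_insert r F)
    · rintro q (rfl | hq)
      · exact hr
      · exact hF.prop.1 q hq
    · rw [Set.pairwise_insert]
      refine ⟨hF.prop.2, fun q hq _ => ⟨?_, hcon.2 q hq⟩⟩
      exact (hcon.2 q hq).symm (hF.prop.1 q hq).toDec hr.toDec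
  exact this (Set.mem_insert r F)

/-- The properties of the algebraic UHF algebra that are used. -/
structure Pkg (B : Type*) [NormedRing B] [StarRing B] [CStarRing B] [NormedAlgebra ℂ B]
    [StarModule ℂ B] where
  τ : B →ₗ[ℂ] ℂ
  tr : ∀ a b, τ (a * b) = τ (b * a)
  bound : ∀ a x, ‖τ (star a * x * a)‖ ≤ ‖x‖ * (τ (star a * a)).re
  spec : ∀ x y r : B, IsStarProjection r → x * r = x → y * r = y → ∀ η : ℝ, 0 < η →
    ∃ e z, IsStarProjection e ∧ Commute e r ∧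
      (η : ℂ) • (1 - e) + star z * z = star x * x + star y * y ∧
      ‖x * e‖ ^ 2 ≤ η ∧ ‖y * e‖ ^ 2 ≤ η
  span : ∃ f : ℕ → B, Submodule.span ℂ (Set.range f) = ⊤
  cmp : ∀ e f : B, IsStarProjection e → IsStarProjection f → (τ e).re ≤ (τ f).re →
    ∃ w, star w * w = e ∧ f * w = w
  part : ∀ M : ℕ, ∃ N : ℕ, M ≤ N ∧ ∃ e : Fin N → B,
    (∀ j, IsStarProjection (e j) ∧ (τ (e j)).re ≤ 1 / N) ∧ ∑ j, e j = 1

namespace Pkg
variable (P : Pkg B)

lemma bound_proj {e : B} (he : IsStarProjection e) (x : B) :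
    ‖P.τ (e * x * e)‖ ≤ ‖x‖ * (P.τ e).re := by
  have := P.bound e x
  rwa [he.isSelfAdjoint.star_eq, he.isIdempotentElem.eq] at this

lemma nonneg {e : B} (he : IsStarProjection e) : 0 ≤ (P.τ e).re := by
  by_cases h : e = 0
  · simp [h]
  have h1 := P.bound_proj he e
  have h2 : 0 < ‖e‖ := norm_pos_iff.2 h
  by_contra hneg
  push Not at hneg
  have := mul_neg_of_pos_of_neg h2 hneg
  linarith [norm_nonneg (P.τ (e * e * e))]

lemma pos {e : B} (he : IsStarProjection e) (h : e ≠ 0) : 0 < (P.τ e).re := by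
  by_contra hneg
  push Not at hneg
  obtain ⟨w, h1, h2⟩ := P.cmp e 0 he (IsStarProjection.zero B) (by simpa using hneg)
  rw [zero_mul] at h2
  rw [← h2, mul_zero] at h1
  exact h h1.symm

lemma anti {q : ℕ → B} (hq : Dec q) {n m : ℕ} (h : n ≤ m) : (P.τ (q m)).re ≤ (P.τ (q n)).re := by
  have := P.nonneg ((hq.proj m).sub_of_mul_eq_left (hq.proj n) (hq.mono n m h))
  rw [map_sub, Complex.sub_re] at this
  linarith

lemma small {q : ℕ → B} (hq : Good q) {ε : ℝ} (hε : 0 < ε) : ∃ N, (P.τ (q N)).re ≤ ε := by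
  obtain ⟨M, hM⟩ := exists_nat_gt (2 / ε)
  obtain ⟨N, hMN, e, he, hsum⟩ := P.part M
  have hN : (2 / ε) < N := hM.trans_le (by exact_mod_cast hMN)
  have hN0 : (0 : ℝ) < N := lt_trans (by positivity) hN
  choose c n hn using fun j => hq.exc (e j) (1 / (2 * N)) (by positivity)
  let k := Finset.univ.sup n
  have hk : ∀ j, ‖q k * e j * q k - c j • q k‖ ≤ 1 / (2 * N) := fun j =>
    (hq.toDec.exc_mono _ _ (Finset.le_sup (f := n) (Finset.mem_univ j))).trans (hn j)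
  refine ⟨k, ?_⟩
  set t := (P.τ (q k)).re with ht
  have ht0 : 0 < t := P.pos (hq.proj k) (hq.ne k)
  have hqk := hq.proj k
  obtain ⟨j, hj⟩ : ∃ j, t / N ≤ (P.τ (q k * e j * q k)).re := by
    by_contra hcon
    push Not at hcon
    have hne : (Finset.univ : Finset (Fin N)).Nonempty := by
      rw [Finset.univ_nonempty_iff, ← Fin.pos_iff_nonempty]; exact_mod_cast hN0
    have h1 := Finset.sum_lt_sum_of_nonempty hne fun j _ => hcon j
    rw [← Complex.re_sum, ← map_sum, ← Finset.sum_mul, ← Finset.mul_sum, hsum, mul_one,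
      hqk.isIdempotentElem.eq, Finset.sum_const, Finset.card_univ, Fintype.card_fin,
      nsmul_eq_mul, mul_div_cancel₀ _ hN0.ne'] at h1
    exact lt_irrefl _ h1
  set l := P.τ (q k * e j * q k) with hl
  have him : P.τ (q k) = t := by
    have h1 := P.bound_proj hqk (q k)
    rw [hqk.isIdempotentElem.eq, hqk.isIdempotentElem.eq] at h1
    have h2 : ‖P.τ (q k)‖ ≤ t := h1.trans (mul_le_of_le_one_left ht0.le hqk.norm_le)
    have h3 : (P.τ (q k)).re = ‖P.τ (q k)‖ := le_antisymm (Complex.re_le_norm _) h2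
    have h4 := Complex.re_eq_norm.1 h3
    apply Complex.ext
    · simp [ht]
    · rw [Complex.ofReal_im]; exact (Complex.nonneg_iff.1 h4).2.symm
  have h1 : ‖l - c j * t‖ ≤ 1 / (2 * N) * t := by
    have h2 := P.bound_proj hqk (q k * e j * q k - c j • q k)
    have h3 : q k * (q k * e j * q k - c j • q k) * q k = q k * e j * q k - c j • q k := by
      rw [mul_sub, sub_mul, mul_smul_comm, smul_mul_assoc, hqk.isIdempotentElem.eq,
        hqk.isIdempotentElem.eq, ← mul_assoc, ← mul_assoc, hqk.isIdempotentElem.eq,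
        mul_assoc _ (q k), hqk.isIdempotentElem.eq]
    rw [h3, map_sub, map_smul, him, smul_eq_mul] at h2
    exact h2.trans (mul_le_mul_of_nonneg_right (hk j) ht0.le)
  have hej := (he j).1
  have h2 : ‖l‖ ≤ ‖q k * e j * q k‖ * (1 / N) := by
    have h3 : l = P.τ (e j * (e j * q k * e j) * e j) := by
      rw [← mul_assoc, ← mul_assoc, hej.isIdempotentElem.eq, mul_assoc _ (e j),
        hej.isIdempotentElem.eq, hl, P.tr (q k * e j), ← mul_assoc, hqk.isIdempotentElem.eq,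
        P.tr (e j * q k), ← mul_assoc, hej.isIdempotentElem.eq, P.tr]
    have h4 : ‖e j * q k * e j‖ = ‖q k * e j * q k‖ := by
      have a1 : e j * q k * e j = star (q k * e j) * (q k * e j) := by
        rw [star_mul, hqk.isSelfAdjoint.star_eq, hej.isSelfAdjoint.star_eq, ← mul_assoc,
          mul_assoc _ (q k) (q k), hqk.isIdempotentElem.eq]
      have a2 : q k * e j * q k = (q k * e j) * star (q k * e j) := by
        rw [star_mul, hqk.isSelfAdjoint.star_eq, hej.isSelfAdjoint.star_eq, ← mul_assoc,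
          mul_assoc _ (e j) (e j), hej.isIdempotentElem.eq]
      rw [a1, a2, CStarRing.norm_star_mul_self, CStarRing.norm_self_mul_star]
    rw [h3, ← h4]
    exact (P.bound_proj hej _).trans (mul_le_mul_of_nonneg_left (he j).2 (norm_nonneg _))
  have h3 : ‖q k * e j * q k‖ ≤ ‖c j‖ + 1 / (2 * N) := by
    have : q k * e j * q k = c j • q k + (q k * e j * q k - c j • q k) := by abel
    rw [this]
    refine (norm_add_le _ _).trans (add_le_add ?_ (hk j))
    rw [norm_smul]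
    exact mul_le_of_le_one_right (norm_nonneg _) hqk.norm_le
  have h4 : ‖c j‖ * t ≤ ‖l‖ + 1 / (2 * N) * t := by
    have : ‖c j * (t : ℂ)‖ ≤ ‖l‖ + ‖l - c j * t‖ := by
      have := norm_sub_le l (l - c j * t)
      rwa [sub_sub_cancel] at this
    rw [norm_mul, Complex.norm_real, Real.norm_of_nonneg ht0.le] at this
    linarith
  have h5 : t / N ≤ ‖l‖ := hj.trans (Complex.re_le_norm _)
  have h6 : ‖l‖ * t ≤ 2 * ‖l‖ * (1 / N) := by
    have a1 : ‖l‖ * t ≤ (‖c j‖ + 1 / (2 * N)) * (1 / N) * t :=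
      mul_le_mul_of_nonneg_right (h2.trans (mul_le_mul_of_nonneg_right h3 (by positivity))) ht0.le
    have a2 : (‖c j‖ + 1 / (2 * N)) * (1 / N) * t = (‖c j‖ * t + 1 / (2 * N) * t) * (1 / N) := by
      ring
    have a3 : 1 / (2 * N) * t + 1 / (2 * N) * t = t / N := by field_simp; ring
    have a4 : ‖c j‖ * t + 1 / (2 * N) * t ≤ 2 * ‖l‖ := by linarith
    rw [a2] at a1
    exact a1.trans (mul_le_mul_of_nonneg_right a4 (by positivity))
  have hl0 : 0 < ‖l‖ := lt_of_lt_of_le (by positivity) h5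
  have h7 : t ≤ 2 * (1 / N) := by
    rw [mul_comm 2, mul_assoc] at h6
    exact le_of_mul_le_mul_left h6 hl0
  rw [div_lt_iff₀ hε] at hN
  have : 2 * (1 / (N : ℝ)) ≤ ε := by
    rw [mul_one_div, div_le_iff₀ hN0]; linarith
  linarith

end Pkg

variable {H : Type*} [NormedAddCommGroup H] [InnerProductSpace ℂ H] [CompleteSpace H]

lemma inner_star_mul (ρ : B →⋆ₐ[ℂ] (H →L[ℂ] H)) (x : B) (ξ : H) :
    ⟪ξ, ρ (star x * x) ξ⟫_ℂ = ((‖ρ x ξ‖ ^ 2 : ℝ) : ℂ) := by
  rw [rep_mul, ← inner_rep, inner_self_eq_norm_sq_to_K]; norm_cast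

lemma Pkg.step (P : Pkg B) {ρ : B →⋆ₐ[ℂ] (H →L[ℂ] H)} (hρ : Irr ρ) {r : B}
    (hr : IsStarProjection r) {ξ : H} (hξ : ‖ξ‖ = 1) (hrξ : ρ r ξ = ξ) (f : B) {ε : ℝ}
    (hε : 0 < ε) : ∃ r' : B, IsStarProjection r' ∧ r' * r = r' ∧ ‖ξ - ρ r' ξ‖ ≤ ε ∧
      ∃ c : ℂ, ‖r' * f * r' - c • r'‖ ≤ ε := by
  set c := ⟪ξ, ρ f ξ⟫_ℂ with hc
  set g := r * f * r - c • r with hg
  have hgr : g * r = g := by
    rw [hg, sub_mul, smul_mul_assoc, mul_assoc _ r r, hr.isIdempotentElem.eq]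
  have hu : ⟪ξ, ρ g ξ⟫_ℂ = 0 := by
    rw [hg, map_sub, map_smul, sub_apply, smul_apply, rep_mul, rep_mul, hrξ, inner_sub_right,
      inner_smul_right, ← hr.isSelfAdjoint.star_eq, ← inner_rep, hrξ, inner_self_eq_norm_sq_to_K,
      hξ]
    simp [hc]
  set C := ‖ρ (star g)‖ with hC
  have hC0 : 0 ≤ C := norm_nonneg _
  obtain ⟨a, ha₁, ha₂⟩ := density hρ (ρ g ξ) ξ hξ hu (δ := ε / 2 * ε / (1 + C)) (by positivity)
  obtain ⟨e, z, he, hcomm, hid, hx, hy⟩ := P.spec (a * g) (star g * (1 - star a) * r) r hr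
    (by rw [mul_assoc, hgr]) (by rw [mul_assoc _ r r, hr.isIdempotentElem.eq]) ((ε / 2) ^ 2)
    (by positivity)
  have hx' : ‖a * g * e‖ ≤ ε / 2 := le_of_sq_le_sq hx (by positivity)
  have hy' : ‖star g * (1 - star a) * r * e‖ ≤ ε / 2 := le_of_sq_le_sq hy (by positivity)
  have her : IsStarProjection (e * r) := he.mul hr hcomm
  refine ⟨e * r, her, by rw [mul_assoc, hr.isIdempotentElem.eq], ?_, c, ?_⟩
  · rw [rep_mul, hrξ]
    have h1 := congrArg (fun b => (⟪ξ, ρ b ξ⟫_ℂ).re) hid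
    have h2 : (1 : B) - e = star (1 - e) * (1 - e) := by
      rw [he.one_sub.isSelfAdjoint.star_eq, he.one_sub.isIdempotentElem.eq]
    simp only [map_add, map_smul, add_apply, smul_apply, inner_add_right, inner_smul_right] at h1
    rw [h2, inner_star_mul, inner_star_mul, inner_star_mul, inner_star_mul] at h1
    simp only [← Complex.ofReal_mul, ← Complex.ofReal_add, Complex.ofReal_re] at h1
    have h3 : ρ (1 - e) ξ = ξ - ρ e ξ := by rw [map_sub, map_one]; rfl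
    have h4 : ‖ρ (star g * (1 - star a) * r) ξ‖ ≤ C * (ε / 2 * ε / (1 + C)) := by
      rw [rep_mul, rep_mul, hrξ]
      refine ((ρ (star g)).le_opNorm _).trans (mul_le_mul_of_nonneg_left ?_ hC0)
      rw [map_sub, map_one, sub_apply, norm_sub_rev]
      exact ha₂
    rw [h3, rep_mul] at h1
    set δ := ε / 2 * ε / (1 + C) with hδ
    have hδ0 : 0 ≤ δ := by positivity
    have h5 : δ * (1 + C) = ε / 2 * ε := by rw [hδ]; field_simp
    have h6 : ‖ρ a (ρ g ξ)‖ ^ 2 ≤ δ ^ 2 := pow_le_pow_left₀ (norm_nonneg _) ha₁ 2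
    have h7 : ‖ρ (star g * (1 - star a) * r) ξ‖ ^ 2 ≤ (C * δ) ^ 2 :=
      pow_le_pow_left₀ (norm_nonneg _) h4 2
    have h8 : δ ^ 2 + (C * δ) ^ 2 ≤ (δ * (1 + C)) ^ 2 := by
      nlinarith [mul_nonneg hC0 (sq_nonneg δ)]
    rw [h5] at h8
    have h9 : (ε / 2) ^ 2 * ‖ξ - ρ e ξ‖ ^ 2 ≤ (ε / 2) ^ 2 * ε ^ 2 := by
      nlinarith [sq_nonneg ‖ρ z ξ‖]
    exact le_of_sq_le_sq (le_of_mul_le_mul_left h9 (by positivity)) hε.le
  · have h1 : e * r * f * (e * r) - c • (e * r) =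
        e * r * (a * g * e) + star (star g * (1 - star a) * r * e) * e := by
      rw [star_mul, star_mul, star_mul, star_star, star_sub, star_one, star_star,
        he.isSelfAdjoint.star_eq, hr.isSelfAdjoint.star_eq]
      have a1 : e * r * (a * g * e) + e * (r * ((1 - a) * g)) * e = e * r * g * e := by
        noncomm_ring
      rw [a1, hg, mul_sub, sub_mul, mul_smul_comm, smul_mul_assoc, mul_assoc e r r,
        hr.isIdempotentElem.eq, hcomm.eq, mul_assoc r e e, he.isIdempotentElem.eq]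
      congr 1
      rw [← hcomm.eq, ← mul_assoc, ← mul_assoc, ← mul_assoc, mul_assoc e r r,
        hr.isIdempotentElem.eq, mul_assoc _ e r, hcomm.eq, ← mul_assoc]
    rw [h1]
    refine (norm_add_le _ _).trans ?_
    have b1 := norm_pl her (a * g * e)
    have b2 := norm_pr he (star (star g * (1 - star a) * r * e))
    rw [norm_star] at b2
    linarith

lemma rep_dec (ρ : B →⋆ₐ[ℂ] (H →L[ℂ] H)) {q : ℕ → B} (hq : Dec q) (x : H) :
    ∃ z, Tendsto (fun n => ρ (q n) x) atTop (𝓝 z) ∧ ∀ n, ρ (q n) z = z :=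
  anti_proj_tendsto (fun n => ρ (q n)) (fun n => (hq.proj n).map ρ)
    (fun n m h => by rw [← map_mul, hq.mono n m h]) x

lemma Pkg.exists_good (P : Pkg B) {ρ : B →⋆ₐ[ℂ] (H →L[ℂ] H)} (hρ : Irr ρ) [Nontrivial H] :
    ∃ r : ℕ → B, Good r ∧ ∃ ζ : H, ζ ≠ 0 ∧ ∀ n, ρ (r n) ζ = ζ := by
  obtain ⟨ξ, hξ⟩ := exists_norm_eq H (c := 1) zero_le_one
  obtain ⟨f, hf⟩ := P.span
  have key : ∀ (r : {r : B // IsStarProjection r ∧ 1 / 2 < ‖ρ r ξ‖}) (n : ℕ),
      ∃ r' : {r : B // IsStarProjection r ∧ 1 / 2 < ‖ρ r ξ‖}, r'.1 * r.1 = r'.1 ∧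
        ∃ c : ℂ, ‖r'.1 * f n.unpair.1 * r'.1 - c • r'.1‖ ≤ 1 / (n + 1) := by
    rintro ⟨r, hr, h1⟩ n
    set s := ‖ρ r ξ‖ with hs
    have hs0 : 0 < s := by linarith
    have hs1 : s ≤ 1 := hξ ▸ proj_norm_le (hr.map ρ) ξ
    have hfix : ρ r (((s⁻¹ : ℝ) : ℂ) • ρ r ξ) = ((s⁻¹ : ℝ) : ℂ) • ρ r ξ := by
      rw [map_smul, ← rep_mul, hr.isIdempotentElem.eq]
    obtain ⟨r', hr', hle, hn, c, hc⟩ := P.step hρ hr (ξ := ((s⁻¹ : ℝ) : ℂ) • ρ r ξ)
      (by rw [norm_smul, Complex.norm_real, Real.norm_of_nonneg (by positivity), ← hs]; field_simp)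
      hfix (f n.unpair.1) (ε := min ((s - 1 / 2) / 2) (1 / (n + 1)))
      (lt_min (by linarith) (by positivity))
    refine ⟨⟨r', hr', ?_⟩, hle, c, hc.trans (min_le_right _ _)⟩
    rw [map_smul, ← rep_mul, hle, ← smul_sub, norm_smul, Complex.norm_real,
      Real.norm_of_nonneg (by positivity), inv_mul_le_iff₀ hs0] at hn
    have h2 : s * min ((s - 1 / 2) / 2) (1 / (n + 1)) ≤ (s - 1 / 2) / 2 :=
      (mul_le_of_le_one_left (le_min (by linarith) (by positivity)) hs1).trans (min_le_left _ _)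
    have h3 := norm_sub_norm_le (ρ r ξ) (ρ r' ξ)
    linarith
  choose nx hnx using key
  let R : ℕ → {r : B // IsStarProjection r ∧ 1 / 2 < ‖ρ r ξ‖} := fun n =>
    Nat.rec ⟨1, IsStarProjection.one B, by rw [map_one]; change _ < ‖ξ‖; rw [hξ]; norm_num⟩
      (fun n r => nx r n) n
  have hR : ∀ n, R (n + 1) = nx (R n) n := fun _ => rfl
  have hdec : Dec fun n => (R n).1 := by
    refine ⟨fun n => (R n).2.1, fun n m h => ?_⟩
    induction m, h using Nat.le_induction with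
    | base => exact (R n).2.1.isIdempotentElem.eq
    | succ m _ ih =>
      have h1 : (R (m + 1)).1 * (R m).1 = (R (m + 1)).1 := (hnx (R m) m).1
      rw [← h1, mul_assoc, ih]
  obtain ⟨ζ, hζ, hfix⟩ := rep_dec ρ hdec ξ
  refine ⟨fun n => (R n).1, ⟨hdec, fun n h => ?_, fun a => ?_⟩, ζ, ?_, hfix⟩
  · have := (R n).2.2
    rw [h, map_zero] at this
    norm_num at this
  · have ha : a ∈ Submodule.span ℂ (Set.range f) := hf ▸ Submodule.mem_top
    induction ha using Submodule.span_induction with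
    | mem x hx =>
      obtain ⟨k, rfl⟩ := hx
      intro ε hε
      obtain ⟨N, hN⟩ := exists_nat_one_div_lt hε
      obtain ⟨c, hc⟩ := (hnx (R (k.pair N)) (k.pair N)).2
      rw [Nat.unpair_pair] at hc
      refine ⟨c, k.pair N + 1, hc.trans (le_trans ?_ hN.le)⟩
      have : (N : ℝ) ≤ k.pair N := by exact_mod_cast Nat.right_le_pair k N
      gcongr
    | zero => exact Exc.zero _
    | add x y _ _ hx hy => exact hx.add hdec hy
    | smul t x _ hx => exact hx.smul t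
  · have : 1 / 2 ≤ ‖ζ‖ := ge_of_tendsto' hζ.norm fun n => (R n).2.2.le
    intro h
    rw [h, norm_zero] at this
    norm_num at this

lemma exc_state {ρ : B →⋆ₐ[ℂ] (H →L[ℂ] H)} (hc : ∀ a, ‖ρ a‖ ≤ ‖a‖) {e : B}
    (he : IsStarProjection e) {ζ : H} (hζ : ρ e ζ = ζ) (a : B) (c : ℂ) :
    ‖⟪ζ, ρ a ζ⟫_ℂ - c * ((‖ζ‖ ^ 2 : ℝ) : ℂ)‖ ≤ ‖e * a * e - c • e‖ * ‖ζ‖ ^ 2 := by
  have h1 : ⟪ζ, ρ a ζ⟫_ℂ - c * ((‖ζ‖ ^ 2 : ℝ) : ℂ) = ⟪ζ, ρ (e * a * e - c • e) ζ⟫_ℂ := by
    rw [map_sub, map_smul, sub_apply, smul_apply, rep_mul, rep_mul, hζ, inner_sub_right,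
      inner_smul_right, ← he.isSelfAdjoint.star_eq, ← inner_rep, hζ, inner_self_eq_norm_sq_to_K]
    norm_cast
  rw [h1]
  refine (norm_inner_le_norm _ _).trans ?_
  have h2 := ((ρ (e * a * e - c • e)).le_opNorm ζ).trans
    (mul_le_mul_of_nonneg_right (hc _) (norm_nonneg _))
  nlinarith [norm_nonneg ζ]

lemma fixed_of_not_orth {ρ : B →⋆ₐ[ℂ] (H →L[ℂ] H)} (hc : ∀ a, ‖ρ a‖ ≤ ‖a‖) {q r : ℕ → B}
    (hq : Dec q) (hr : Good r) {ζ : H} (hζ : ζ ≠ 0) (hfix : ∀ n, ρ (r n) ζ = ζ)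
    (hno : ¬ Orth q r) : ∃ ζ' : H, ζ' ≠ 0 ∧ ∀ n, ρ (q n) ζ' = ζ' := by
  unfold Orth at hno
  push Not at hno
  obtain ⟨d, δ, hδ, hd⟩ := hno
  obtain ⟨z, hz, hfz⟩ := rep_dec ρ hq (ρ d ζ)
  refine ⟨z, ?_, hfz⟩
  have hζ0 : 0 < ‖ζ‖ := norm_pos_iff.2 hζ
  have key : ∀ n, δ ^ 2 / 2 * ‖ζ‖ ^ 2 ≤ ‖ρ (q n) (ρ d ζ)‖ ^ 2 := by
    intro n
    obtain ⟨c, N, hN⟩ := hr.exc (star (q n * d) * (q n * d)) (δ ^ 2 / 4) (by positivity)
    set M := max n N
    have h1 := (hr.toDec.exc_mono _ c (le_max_right n N)).trans hN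
    have h2 := exc_state hc (hr.proj M) (hfix M) (star (q n * d) * (q n * d)) c
    rw [inner_star_mul, rep_mul] at h2
    have h3 : δ < ‖q n * d * r M‖ := by
      refine (hd M).trans_le ?_
      have : q M * d * r M = q M * (q n * d * r M) := by
        rw [← mul_assoc, ← mul_assoc, hq.mono n M (le_max_left _ _)]
      rw [this]; exact norm_pl (hq.proj M) _
    have h4 : r M * (star (q n * d) * (q n * d)) * r M = star (q n * d * r M) * (q n * d * r M) := by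
      rw [star_mul (q n * d), (hr.proj M).isSelfAdjoint.star_eq]; noncomm_ring
    have h5 : ‖r M * (star (q n * d) * (q n * d)) * r M‖ ≤ ‖c‖ + δ ^ 2 / 4 := by
      have : r M * (star (q n * d) * (q n * d)) * r M =
        c • r M + (r M * (star (q n * d) * (q n * d)) * r M - c • r M) := by abel
      rw [this]
      refine (norm_add_le _ _).trans (add_le_add ?_ h1)
      rw [norm_smul]
      exact mul_le_of_le_one_right (norm_nonneg _) (hr.proj M).norm_le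
    rw [h4, CStarRing.norm_star_mul_self] at h5
    have h6 : δ ^ 2 ≤ ‖c‖ + δ ^ 2 / 4 := by nlinarith
    have h7 := norm_sub_norm_le (c * ((‖ζ‖ ^ 2 : ℝ) : ℂ)) ((‖ρ (q n) (ρ d ζ)‖ ^ 2 : ℝ) : ℂ)
    rw [norm_sub_rev, norm_mul, Complex.norm_real, Complex.norm_real,
      Real.norm_of_nonneg (by positivity), Real.norm_of_nonneg (by positivity)] at h7
    have h8 := mul_le_mul_of_nonneg_right h1 (sq_nonneg ‖ζ‖)
    nlinarith [sq_nonneg ‖ζ‖]
  have : δ ^ 2 / 2 * ‖ζ‖ ^ 2 ≤ ‖z‖ ^ 2 := ge_of_tendsto' (hz.norm.pow 2) key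
  intro h
  rw [h, norm_zero] at this
  have : 0 < δ ^ 2 / 2 * ‖ζ‖ ^ 2 := by positivity
  linarith

end

end Vale.Agent.P070
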