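import Mathlib

/-! Hilbert space lemmas: Schur's lemma, a density lemma, monotone projections. -/

namespace Vale.Agent.P070

open scoped InnerProductSpace
open Filter Topology

section
variable {R : Type*} [Ring R] [StarRing R] [Algebra ℂ R] [StarModule ℂ R]
variable {H : Type*} [NormedAddCommGroup H] [InnerProductSpace ℂ H] [CompleteSpace H]

/-- Only trivial closed invariant subspaces. -/
def Irr (ρ : R →⋆ₐ[ℂ] (H →L[ℂ] H)) : Prop :=
  ∀ L : Submodule ℂ H, IsClosed (L : Set H) → (∀ a, ∀ x ∈ L, ρ a x ∈ L) → L = ⊥ ∨ L = ⊤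

lemma inner_rep (ρ : R →⋆ₐ[ℂ] (H →L[ℂ] H)) (a : R) (x y : H) :
    ⟪ρ a x, y⟫_ℂ = ⟪x, ρ (star a) y⟫_ℂ := by
  rw [map_star, ContinuousLinearMap.star_eq_adjoint, ContinuousLinearMap.adjoint_inner_right]

lemma rep_mul (ρ : R →⋆ₐ[ℂ] (H →L[ℂ] H)) (a b : R) (x : H) : ρ (a * b) x = ρ a (ρ b x) := by
  rw [map_mul]; rfl

lemma schur_sa {ρ : R →⋆ₐ[ℂ] (H →L[ℂ] H)} (hρ : Irr ρ) (S : H →L[ℂ] H) (hS : IsSelfAdjoint S)
    (hc : ∀ a, Commute S (ρ a)) : ∃ c : ℂ, S = c • 1 := by
  by_cases h : (spectrum ℝ S).Subsingleton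
  · obtain ⟨r, hr⟩ : ∃ r : ℝ, spectrum ℝ S ⊆ {r} := by
      rcases h.eq_empty_or_singleton with h | ⟨r, h⟩
      · exact ⟨0, by rw [h]; exact Set.empty_subset _⟩
      · exact ⟨r, h.le⟩
    refine ⟨r, ?_⟩
    rw [CFC.eq_algebraMap_of_spectrum_subset_singleton S r hr, Algebra.algebraMap_eq_smul_one]
    rfl
  · exfalso
    obtain ⟨l, hl, m, hm, hlm⟩ : ∃ l ∈ spectrum ℝ S, ∃ m ∈ spectrum ℝ S, l < m := by
      rw [Set.not_subsingleton_iff] at h
      obtain ⟨a, ha, b, hb, hab⟩ := h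
      rcases lt_or_gt_of_ne hab with h | h
      · exact ⟨a, ha, b, hb, h⟩
      · exact ⟨b, hb, a, ha, h⟩
    set k := (l + m) / 2 with hk
    let f : ℝ → ℝ := fun t => max (t - k) 0
    let g : ℝ → ℝ := fun t => max (k - t) 0
    have hf : Continuous f := by fun_prop
    have hg : Continuous g := by fun_prop
    have hfg : cfc f S * cfc g S = 0 := by
      rw [← cfc_mul f g S hf.continuousOn hg.continuousOn]
      have : (fun t => f t * g t) = fun _ => (0 : ℝ) := by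
        funext t
        simp only [f, g]
        rcases le_total t k with h | h
        · rw [max_eq_right (by linarith : t - k ≤ 0), zero_mul]
        · rw [max_eq_right (by linarith : k - t ≤ 0), mul_zero]
      rw [this]; exact cfc_const_zero ℝ S
    have key : ∀ (φ : ℝ → ℝ), Continuous φ → cfc φ S = 0 → ∀ t ∈ spectrum ℝ S, φ t = 0 := by
      intro φ hφ h0 t ht
      have h1 : cfc φ S = cfc (fun _ : ℝ => (0 : ℝ)) S := by rw [h0, cfc_const_zero]
      exact eqOn_of_cfc_eq_cfc h1 hφ.continuousOn continuousOn_const hS ht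
    rcases hρ (LinearMap.ker (cfc f S : H →L[ℂ] H).toLinearMap)
        (ContinuousLinearMap.isClosed_ker _) (by
          intro a x hx
          have hx' : (cfc f S) x = 0 := hx
          have h1 : Commute (cfc f S) (ρ a) := (hc a).cfc_real f
          change (cfc f S * ρ a) x = 0
          rw [h1.eq]
          change ρ a (cfc f S x) = 0
          rw [hx', map_zero]) with h0 | h0
    · have : cfc g S = 0 := by
        ext x
        have : cfc g S x ∈ LinearMap.ker (cfc f S : H →L[ℂ] H).toLinearMap := by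
          change (cfc f S * cfc g S) x = 0
          rw [hfg]; rfl
        rw [h0] at this
        simpa using this
      have h2 := key g hg this l hl
      simp only [g] at h2
      have : k - l ≤ 0 := h2 ▸ le_max_left _ _
      linarith
    · have : cfc f S = 0 := by
        ext x
        have : x ∈ LinearMap.ker (cfc f S : H →L[ℂ] H).toLinearMap := by rw [h0]; trivial
        exact this
      have h2 := key f hf this m hm
      simp only [f] at h2
      have : m - k ≤ 0 := h2 ▸ le_max_left _ _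
      linarith

lemma schur {ρ : R →⋆ₐ[ℂ] (H →L[ℂ] H)} (hρ : Irr ρ) (T : H →L[ℂ] H)
    (hc : ∀ a, Commute T (ρ a)) : ∃ c : ℂ, ∀ x, T x = c • x := by
  have hs : ∀ a, Commute (star T) (ρ a) := by
    intro a
    have := congrArg star (hc (star a)).eq
    rw [star_mul, star_mul, ← map_star, star_star] at this
    exact this.symm
  obtain ⟨c₁, h₁⟩ := schur_sa hρ (T + star T) (IsSelfAdjoint.add_star_self T)
    (fun a => (hc a).add_left (hs a))
  obtain ⟨c₂, h₂⟩ := schur_sa hρ (Complex.I • (T - star T))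
    (by
      change star _ = _
      rw [star_smul, star_sub, star_star, Complex.star_def, Complex.conj_I, neg_smul, ← smul_neg,
        neg_sub])
    (fun a => ((hc a).sub_left (hs a)).smul_left _)
  refine ⟨c₁ / 2 - Complex.I * c₂ / 2, fun x => ?_⟩
  have e₁ : T x + star T x = c₁ • x := by
    have := congrArg (fun S : H →L[ℂ] H => S x) h₁
    simpa using this
  have e₂ : Complex.I • (T x - star T x) = c₂ • x := by
    have := congrArg (fun S : H →L[ℂ] H => S x) h₂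
    simpa using this
  have e₃ : T x - star T x = -(Complex.I * c₂) • x := by
    rw [neg_smul, mul_smul, ← e₂, smul_smul, Complex.I_mul_I]; simp
  have : T x = (1 / 2 : ℂ) • ((T x + star T x) + (T x - star T x)) := by
    rw [add_add_sub_cancel, ← two_smul ℂ, smul_smul]; simp
  rw [this, e₁, e₃, ← add_smul, smul_smul]
  congr 1; ring

lemma two_vec {ρ : R →⋆ₐ[ℂ] (H →L[ℂ] H)} (hρ : Irr ρ) (u η₁ η₂ ξ : H) (hξ : ‖ξ‖ = 1)
    (hu : ⟪ξ, u⟫_ℂ = 0) (h : ∀ a, ⟪η₁, ρ a u⟫_ℂ + ⟪ξ, ρ a η₂⟫_ℂ = 0) : ⟪ξ, η₂⟫_ℂ = 0 := by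
  let e := (WithLp.prodContinuousLinearEquiv 2 ℂ H H)
  let T : R → (WithLp 2 (H × H) →L[ℂ] WithLp 2 (H × H)) := fun a =>
    e.symm.toContinuousLinearMap ∘L ((ρ a).prodMap (ρ a)) ∘L e.toContinuousLinearMap
  have hT : ∀ a x y, T a (WithLp.toLp 2 (x, y)) = WithLp.toLp 2 (ρ a x, ρ a y) := fun _ _ _ => rfl
  let φ : R →ₗ[ℂ] WithLp 2 (H × H) :=
    { toFun := fun a => WithLp.toLp 2 (ρ a u, ρ a η₂)
      map_add' := fun a b => by rw [map_add]; rfl
      map_smul' := fun c a => by rw [map_smul]; rfl }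
  let L := (LinearMap.range φ).topologicalClosure
  have hLc : IsClosed (L : Set (WithLp 2 (H × H))) := Submodule.isClosed_topologicalClosure _
  have : CompleteSpace L := hLc.completeSpace_coe
  have hinv : ∀ a, ∀ w ∈ L, T a w ∈ L := by
    intro a w hw
    have : L ≤ L.comap (T a).toLinearMap := by
      apply Submodule.topologicalClosure_minimal
      · rintro _ ⟨b, rfl⟩
        apply Submodule.le_topologicalClosure
        refine ⟨a * b, ?_⟩
        change WithLp.toLp 2 (ρ (a * b) u, ρ (a * b) η₂) = T a (WithLp.toLp 2 (ρ b u, ρ b η₂))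
        rw [hT, rep_mul, rep_mul]
      · exact hLc.preimage (T a).continuous
    exact this hw
  have hadj : ∀ a v w, ⟪T a v, w⟫_ℂ = ⟪v, T (star a) w⟫_ℂ := by
    rintro a ⟨v₁, v₂⟩ ⟨w₁, w₂⟩
    rw [hT, hT, WithLp.prod_inner_apply, WithLp.prod_inner_apply]
    simp only [inner_rep]
  let P := L.starProjection
  have hP : ∀ a v, P (T a v) = T a (P v) := by
    intro a v
    apply Submodule.eq_starProjection_of_mem_of_inner_eq_zero
    · exact hinv a _ (Submodule.starProjection_apply_mem L v)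
    · intro w hw
      rw [← map_sub, hadj]
      exact Submodule.starProjection_inner_eq_zero v _ (hinv _ w hw)
  let i₁ : H →L[ℂ] WithLp 2 (H × H) := e.symm.toContinuousLinearMap ∘L ContinuousLinearMap.inl ℂ H H
  let i₂ : H →L[ℂ] WithLp 2 (H × H) := e.symm.toContinuousLinearMap ∘L ContinuousLinearMap.inr ℂ H H
  let p₁ : WithLp 2 (H × H) →L[ℂ] H := ContinuousLinearMap.fst ℂ H H ∘L e.toContinuousLinearMap
  let p₂ : WithLp 2 (H × H) →L[ℂ] H := ContinuousLinearMap.snd ℂ H H ∘L e.toContinuousLinearMap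
  have hi₁ : ∀ a x, i₁ (ρ a x) = T a (i₁ x) := fun a x => by
    change WithLp.toLp 2 (ρ a x, 0) = T a (WithLp.toLp 2 (x, 0))
    rw [hT, map_zero]
  have hi₂ : ∀ a x, i₂ (ρ a x) = T a (i₂ x) := fun a x => by
    change WithLp.toLp 2 (0, ρ a x) = T a (WithLp.toLp 2 (0, x))
    rw [hT, map_zero]
  have hp₁ : ∀ a v, p₁ (T a v) = ρ a (p₁ v) := fun _ _ => rfl
  have hp₂ : ∀ a v, p₂ (T a v) = ρ a (p₂ v) := fun _ _ => rfl
  have gen : ∀ (i : H →L[ℂ] WithLp 2 (H × H)) (p : WithLp 2 (H × H) →L[ℂ] H),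
      (∀ a x, i (ρ a x) = T a (i x)) → (∀ a v, p (T a v) = ρ a (p v)) →
      ∃ c : ℂ, ∀ x, p (P (i x)) = c • x := by
    intro i p hi hp
    apply schur hρ (p ∘L P ∘L i)
    intro a
    ext x
    change p (P (i (ρ a x))) = ρ a (p (P (i x)))
    rw [hi, hP, hp]
  obtain ⟨α, hα⟩ := gen i₁ p₁ hi₁ hp₁
  obtain ⟨β, hβ⟩ := gen i₂ p₁ hi₂ hp₁
  obtain ⟨γ, hγ⟩ := gen i₁ p₂ hi₁ hp₂
  obtain ⟨δ, hδ⟩ := gen i₂ p₂ hi₂ hp₂
  have hw : i₁ u + i₂ η₂ ∈ L := by
    apply Submodule.le_topologicalClosure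
    refine ⟨1, ?_⟩
    change WithLp.toLp 2 (ρ 1 u, ρ 1 η₂) = WithLp.toLp 2 (u, 0) + WithLp.toLp 2 (0, η₂)
    rw [map_one, ← WithLp.toLp_add]; simp
  have hPw : P (i₁ u + i₂ η₂) = i₁ u + i₂ η₂ := Submodule.starProjection_eq_self_iff.2 hw
  have q₁ : α • u + β • η₂ = u := by
    have := congrArg p₁ hPw
    rw [map_add, map_add, hα, hβ] at this
    rw [this]
    change u + 0 = u
    simp
  have q₂ : γ • u + δ • η₂ = η₂ := by
    have := congrArg p₂ hPw
    rw [map_add, map_add, hγ, hδ] at this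
    rw [this]
    change 0 + η₂ = η₂
    simp
  set s := ⟪ξ, η₂⟫_ℂ with hs
  have r₁ : β * s = 0 := by
    have := congrArg (fun z => ⟪ξ, z⟫_ℂ) q₁
    simpa [inner_add_right, inner_smul_right, hu] using this
  have r₂ : δ * s = s := by
    have := congrArg (fun z => ⟪ξ, z⟫_ℂ) q₂
    simpa [inner_add_right, inner_smul_right, hu] using this
  have hmem : i₂ (s • ξ) ∈ L := by
    rw [← Submodule.starProjection_eq_self_iff]
    apply e.injective
    apply Prod.ext
    · change p₁ (P (i₂ (s • ξ))) = 0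
      rw [hβ, smul_smul, r₁, zero_smul]
    · change p₂ (P (i₂ (s • ξ))) = s • ξ
      rw [hδ, smul_smul, r₂]
  have horth : L ≤ LinearMap.ker (innerSL ℂ (WithLp.toLp 2 (η₁, ξ))).toLinearMap := by
    apply Submodule.topologicalClosure_minimal
    · rintro _ ⟨b, rfl⟩
      change ⟪WithLp.toLp 2 (η₁, ξ), WithLp.toLp 2 (ρ b u, ρ b η₂)⟫_ℂ = 0
      rw [WithLp.prod_inner_apply]
      exact h b
    · exact ContinuousLinearMap.isClosed_ker _
  have := horth hmem
  change ⟪WithLp.toLp 2 (η₁, ξ), WithLp.toLp 2 ((0 : H), s • ξ)⟫_ℂ = 0 at this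
  rw [WithLp.prod_inner_apply] at this
  simpa [inner_smul_right, inner_self_eq_norm_sq_to_K, hξ] using this

lemma density {ρ : R →⋆ₐ[ℂ] (H →L[ℂ] H)} (hρ : Irr ρ) (u ξ : H) (hξ : ‖ξ‖ = 1)
    (hu : ⟪ξ, u⟫_ℂ = 0) {δ : ℝ} (hδ : 0 < δ) :
    ∃ a, ‖ρ a u‖ ≤ δ ∧ ‖ρ (star a) ξ - ξ‖ ≤ δ := by
  let V : Set (H × H) := Set.range fun a : R => (ρ a u, ρ (star a) ξ)
  have hsm : ∀ (t : ℝ) (a : R), (ρ ((t : ℂ) • a) u, ρ (star ((t : ℂ) • a)) ξ)
      = (t : ℂ) • (ρ a u, ρ (star a) ξ) := by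
    intro t a
    rw [star_smul, map_smul, map_smul, Complex.star_def, Complex.conj_ofReal]; rfl
  have hV : Convex ℝ V := by
    rintro _ ⟨a, rfl⟩ _ ⟨b, rfl⟩ s t _ _ _
    refine ⟨(s : ℂ) • a + (t : ℂ) • b, ?_⟩
    have h1 := hsm s a
    have h2 := hsm t b
    simp only [star_add, map_add, add_apply]
    rw [← Prod.mk_add_mk, h1, h2]; rfl
  by_cases hm : ((0 : H), ξ) ∈ closure V
  · obtain ⟨_, ⟨a, rfl⟩, ha⟩ := Metric.mem_closure_iff.1 hm δ hδ
    rw [dist_comm, Prod.dist_eq, max_lt_iff, dist_eq_norm, dist_eq_norm] at ha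
    exact ⟨a, by simpa using ha.1.le, ha.2.le⟩
  · exfalso
    obtain ⟨f, s, h1, h2⟩ := RCLike.geometric_hahn_banach_point_closed (𝕜 := ℂ) hV.closure
      isClosed_closure hm
    let η₁ := (InnerProductSpace.toDual ℂ H).symm (f ∘L ContinuousLinearMap.inl ℂ H H)
    let η₂ := (InnerProductSpace.toDual ℂ H).symm (f ∘L ContinuousLinearMap.inr ℂ H H)
    have hf : ∀ x y, f (x, y) = ⟪η₁, x⟫_ℂ + ⟪η₂, y⟫_ℂ := by
      intro x y
      rw [InnerProductSpace.toDual_symm_apply, InnerProductSpace.toDual_symm_apply]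
      change f (x, y) = f (x, 0) + f (0, y)
      rw [← map_add]; simp
    have hs : s < 0 := by
      have := h2 (ρ 0 u, ρ (star 0) ξ) (subset_closure ⟨0, rfl⟩)
      rw [hf] at this
      simpa using this
    have hz : ∀ a, (f (ρ a u, ρ (star a) ξ)).re = 0 := by
      intro a
      by_contra hne
      have := h2 _ (subset_closure ⟨((s / (f (ρ a u, ρ (star a) ξ)).re : ℝ) : ℂ) • a, rfl⟩)
      dsimp only at this
      rw [hsm, map_smul, smul_eq_mul, RCLike.re_to_complex, Complex.re_ofReal_mul,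
        div_mul_cancel₀ _ hne] at this
      exact lt_irrefl _ this
    have hre : ∀ a, (⟪η₁, ρ a u⟫_ℂ + ⟪ξ, ρ a η₂⟫_ℂ).re = 0 := by
      intro a
      have := hz a
      rw [hf, ← inner_rep, ← inner_conj_symm (ρ a η₂) ξ, Complex.add_re, Complex.conj_re] at this
      exact this
    have hall : ∀ a, ⟪η₁, ρ a u⟫_ℂ + ⟪ξ, ρ a η₂⟫_ℂ = 0 := by
      intro a
      apply Complex.ext
      · exact hre a
      · have := hre (Complex.I • a)
        simp only [map_smul, smul_apply, inner_smul_right] at this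
        rw [← mul_add, Complex.I_mul_re] at this
        simpa only [neg_eq_zero, Complex.zero_im] using this
    have h0 := two_vec hρ u η₁ η₂ ξ hξ hu hall
    rw [hf, inner_zero_right, zero_add, ← inner_conj_symm, h0] at h1
    simp at h1
    linarith

lemma dense_orbit {ρ : R →⋆ₐ[ℂ] (H →L[ℂ] H)} (hρ : Irr ρ) (ξ : H) (hξ : ξ ≠ 0) :
    DenseRange (fun a => ρ a ξ) := by
  let φ : R →ₗ[ℂ] H :=
    { toFun := fun a => ρ a ξ
      map_add' := fun a b => by rw [map_add]; rfl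
      map_smul' := fun c a => by rw [map_smul]; rfl }
  let L := (LinearMap.range φ).topologicalClosure
  have hLc : IsClosed (L : Set H) := Submodule.isClosed_topologicalClosure _
  rcases hρ L hLc (by
    intro a w hw
    have : L ≤ L.comap (ρ a).toLinearMap := by
      apply Submodule.topologicalClosure_minimal
      · rintro _ ⟨b, rfl⟩
        apply Submodule.le_topologicalClosure
        exact ⟨a * b, rep_mul ρ a b ξ⟩
      · exact hLc.preimage (ρ a).continuous
    exact this hw) with h | h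
  · exfalso
    have : ξ ∈ L := by
      apply Submodule.le_topologicalClosure
      exact ⟨1, by change ρ 1 ξ = ξ; rw [map_one]; rfl⟩
    rw [h] at this
    exact hξ (by simpa using this)
  · exact Submodule.dense_iff_topologicalClosure_eq_top.2 h

lemma equiv_of_state {H' : Type*} [NormedAddCommGroup H'] [InnerProductSpace ℂ H']
    [CompleteSpace H'] {ρ : R →⋆ₐ[ℂ] (H →L[ℂ] H)} {σ : R →⋆ₐ[ℂ] (H' →L[ℂ] H')}
    (hρ : Irr ρ) (hσ : Irr σ) (ξ : H) (ζ : H') (hξ : ξ ≠ 0) (hζ : ζ ≠ 0)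
    (h : ∀ a, ⟪ξ, ρ a ξ⟫_ℂ = ⟪ζ, σ a ζ⟫_ℂ) :
    ∃ U : H ≃ₗᵢ[ℂ] H', ∀ a x, U (ρ a x) = σ a (U x) := by
  let φ : R →ₗ[ℂ] H :=
    { toFun := fun a => ρ a ξ
      map_add' := fun a b => by rw [map_add]; rfl
      map_smul' := fun c a => by rw [map_smul]; rfl }
  let ψ : R →ₗ[ℂ] H' :=
    { toFun := fun a => σ a ζ
      map_add' := fun a b => by rw [map_add]; rfl
      map_smul' := fun c a => by rw [map_smul]; rfl }
  have d₁ : DenseRange φ := dense_orbit hρ ξ hξ
  have d₂ : DenseRange ψ := dense_orbit hσ ζ hζ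
  have hn : ∀ a, ‖ψ (LinearEquiv.refl ℂ R a)‖ = ‖φ a‖ := by
    intro a
    change ‖σ a ζ‖ = ‖ρ a ξ‖
    rw [norm_eq_sqrt_re_inner (𝕜 := ℂ), norm_eq_sqrt_re_inner (𝕜 := ℂ), inner_rep, inner_rep,
      ← rep_mul, ← rep_mul, h]
  refine ⟨(LinearEquiv.refl ℂ R).extendOfIsometry φ ψ d₁ d₂ hn, fun a x => ?_⟩
  refine d₁.induction_on (p := fun x =>
    (LinearEquiv.refl ℂ R).extendOfIsometry φ ψ d₁ d₂ hn (ρ a x) =
      σ a ((LinearEquiv.refl ℂ R).extendOfIsometry φ ψ d₁ d₂ hn x)) x ?_ ?_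
  · apply isClosed_eq <;> fun_prop
  · intro b
    have e1 : ρ a (φ b) = φ (a * b) := (rep_mul ρ a b ξ).symm
    rw [e1, LinearEquiv.extendOfIsometry_eq, LinearEquiv.extendOfIsometry_eq]
    exact rep_mul σ a b ζ

end

section
variable {H : Type*} [NormedAddCommGroup H] [InnerProductSpace ℂ H] [CompleteSpace H]

lemma proj_norm_sq {e : H →L[ℂ] H} (he : IsStarProjection e) (x : H) :
    ‖x - e x‖ ^ 2 = ‖x‖ ^ 2 - ‖e x‖ ^ 2 := by
  have h1 : ⟪x, e x⟫_ℂ = ⟪e x, e x⟫_ℂ := by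
    have : e x = star e (e x) := by
      rw [he.isSelfAdjoint.star_eq]
      change e x = (e * e) x
      rw [he.isIdempotentElem.eq]
    conv_lhs => rw [this, ContinuousLinearMap.star_eq_adjoint,
      ContinuousLinearMap.adjoint_inner_right]
  rw [norm_sub_sq (𝕜 := ℂ), h1, inner_self_eq_norm_sq]
  ring

lemma proj_norm_le {e : H →L[ℂ] H} (he : IsStarProjection e) (x : H) : ‖e x‖ ≤ ‖x‖ := by
  have := proj_norm_sq he x
  have h2 : ‖e x‖ ^ 2 ≤ ‖x‖ ^ 2 := by nlinarith [sq_nonneg ‖x - e x‖]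
  exact le_of_sq_le_sq h2 (norm_nonneg _)

/-- A decreasing sequence of projections converges strongly, to a common fixed vector. -/
lemma anti_proj_tendsto (e : ℕ → (H →L[ℂ] H)) (he : ∀ n, IsStarProjection (e n))
    (hm : ∀ n m, n ≤ m → e m * e n = e m) (x : H) :
    ∃ z, Tendsto (fun n => e n x) atTop (𝓝 z) ∧ ∀ n, e n z = z := by
  have hm' : ∀ n m, n ≤ m → e n * e m = e m := by
    intro n m h
    have := congrArg star (hm n m h)
    rwa [star_mul, (he n).isSelfAdjoint.star_eq, (he m).isSelfAdjoint.star_eq] at this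
  have hsq : ∀ n m, n ≤ m → ‖e n x - e m x‖ ^ 2 = ‖e n x‖ ^ 2 - ‖e m x‖ ^ 2 := by
    intro n m h
    have h1 : e m x = e m (e n x) := by
      change _ = (e m * e n) x
      rw [hm n m h]
    rw [h1]
    exact proj_norm_sq (he m) _
  have hanti : Antitone fun n => ‖e n x‖ ^ 2 := by
    intro n m h
    have := hsq n m h
    simp only
    nlinarith [sq_nonneg ‖e n x - e m x‖]
  have hbd : BddBelow (Set.range fun n => ‖e n x‖ ^ 2) := ⟨0, by rintro _ ⟨n, rfl⟩; positivity⟩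
  have hc : CauchySeq fun n => ‖e n x‖ ^ 2 := (tendsto_atTop_ciInf hanti hbd).cauchySeq
  have hcs : CauchySeq fun n => e n x := by
    rw [Metric.cauchySeq_iff'] at hc ⊢
    intro ε hε
    obtain ⟨N, hN⟩ := hc (ε ^ 2) (by positivity)
    refine ⟨N, fun n hn => ?_⟩
    have h1 := hN n hn
    rw [dist_comm, dist_eq_norm]
    rw [dist_comm, Real.dist_eq, ← hsq N n hn, abs_of_nonneg (by positivity)] at h1
    exact lt_of_pow_lt_pow_left₀ 2 hε.le h1
  obtain ⟨z, hz⟩ := cauchySeq_tendsto_of_complete hcs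
  refine ⟨z, hz, fun n => ?_⟩
  have h1 : Tendsto (fun m => e n (e m x)) atTop (𝓝 (e n z)) := ((e n).continuous.tendsto z).comp hz
  have h2 : Tendsto (fun m => e n (e m x)) atTop (𝓝 z) := by
    refine hz.congr' ?_
    filter_upwards [eventually_ge_atTop n] with m hm
    change _ = (e n * e m) x
    rw [hm' n m hm]
  exact tendsto_nhds_unique h1 h2

end

end Vale.Agent.P070
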