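import Vale.Agent.P070.Exc

/-! Shell unitaries linking two excising sequences. -/

namespace Vale.Agent.P070

open scoped InnerProductSpace
open Filter Topology

section
variable {B : Type*} [NormedRing B] [StarRing B] [CStarRing B] [NormedAlgebra ℂ B]
  [StarModule ℂ B]

structure St (q p : ℕ → B) (W : B) : Prop where
  pi : W * star W * W = W
  lq : ∃ a, (1 - star W * W) * q a = q a
  lp : ∃ b, (1 - W * star W) * p b = p b

def Ext (W W' : B) : Prop := W' * (star W * W) = W ∧ (W * star W) * W' = W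

lemma pi_star {W : B} (h : W * star W * W = W) : star W * W * star W = star W := by
  have := congrArg star h
  rwa [star_mul, star_mul, star_star, ← mul_assoc] at this

lemma pi_proj {W : B} (h : W * star W * W = W) : IsStarProjection (star W * W) :=
  ⟨by
    change star W * W * (star W * W) = star W * W
    rw [← mul_assoc, pi_star h], IsSelfAdjoint.star_mul_self W⟩

lemma pi_proj' {W : B} (h : W * star W * W = W) : IsStarProjection (W * star W) :=
  ⟨by
    change W * star W * (W * star W) = W * star W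
    rw [← mul_assoc, h], IsSelfAdjoint.mul_star_self W⟩

lemma St.symm {q p : ℕ → B} {W : B} (h : St q p W) : St p q (star W) :=
  ⟨by rw [star_star]; exact pi_star h.pi, by rw [star_star]; exact h.lp,
    by rw [star_star]; exact h.lq⟩

lemma Ext.symm {W W' : B} (h : Ext W W') : Ext (star W) (star W') := by
  constructor
  · have := congrArg star h.2
    rwa [star_mul, star_mul, star_star, ← star_star W, star_star (star W)] at this
  · have := congrArg star h.1
    rwa [star_mul, star_mul, star_star, ← star_star W, star_star (star W)] at this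

lemma Ext.le {W W' : B} (hW : W * star W * W = W) (h : Ext W W') :
    star W' * W' * (star W * W) = star W * W := by
  have h1 : star W * W' = star W * W := by
    conv_lhs => rw [← pi_star hW, mul_assoc (star W), mul_assoc (star W), h.2]
  have h2 := congrArg star h1
  rw [star_mul, star_mul, star_star] at h2
  rw [mul_assoc, h.1, h2]

lemma Ext.trans {W W' W'' : B} (hW : W * star W * W = W) (h : Ext W W') (h' : Ext W' W'') :
    Ext W W'' := by
  constructor
  · rw [← h.le hW, ← mul_assoc, h'.1, h.1]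
  · have h1 := h.symm.le (by rw [star_star]; exact pi_star hW)
    rw [star_star, star_star] at h1
    have h2 := congrArg star h1
    rw [star_mul, star_mul, star_mul, star_star, star_star] at h2
    rw [← h2, mul_assoc, h'.2, h.2]

lemma Ext.refl {W : B} (hW : W * star W * W = W) : Ext W W := ⟨by rw [← mul_assoc, hW], hW⟩

lemma Pkg.forth (P : Pkg B) {q p : ℕ → B} (hq : Good q) (hp : Good p) {W : B} (h : St q p W)
    (n : ℕ) : ∃ W', St q p W' ∧ Ext W W' ∧ q n * (1 - star W' * W') = 1 - star W' * W' := by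
  obtain ⟨a, ha⟩ := h.lq
  obtain ⟨b, hb⟩ := h.lp
  set Q := 1 - star W * W with hQ
  set R := 1 - W * star W with hR
  have hQp : IsStarProjection Q := (pi_proj h.pi).one_sub
  have hRp : IsStarProjection R := (pi_proj' h.pi).one_sub
  set a' := max a n
  obtain ⟨b₀, hb₀⟩ := P.small hp (P.pos (hq.proj a') (hq.ne a'))
  set b' := max b b₀
  have hQa : Q * q a' = q a' := by
    rw [← hq.toDec.mono' a a' (le_max_left _ _), ← mul_assoc, ha]
  have hRb : R * p b' = p b' := by
    rw [← hp.toDec.mono' b b' (le_max_left _ _), ← mul_assoc, hb]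
  have hep : IsStarProjection (Q - q a') := (hq.proj a').sub_of_mul_eq_right hQp hQa
  have hfp : IsStarProjection (R - p b') := (hp.proj b').sub_of_mul_eq_right hRp hRb
  have hτ : P.τ Q = P.τ R := by rw [hQ, hR, map_sub, map_sub, P.tr]
  obtain ⟨w, hw₁, hw₂⟩ := P.cmp _ _ hep hfp (by
    rw [map_sub P.τ Q, map_sub P.τ R, Complex.sub_re, Complex.sub_re, hτ]
    have := P.anti hp.toDec (le_max_right b b₀)
    linarith)
  have hwe : w * (Q - q a') = w := by
    have h1 : star (w * (1 - (Q - q a'))) * (w * (1 - (Q - q a'))) = 0 := by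
      rw [star_mul, mul_assoc, ← mul_assoc (star w), hw₁, hep.mul_one_sub_self, mul_zero]
    have h2 := CStarRing.star_mul_self_eq_zero_iff _ |>.1 h1
    rw [mul_sub, mul_one, sub_eq_zero] at h2
    exact h2.symm
  have hWQ : W * Q = 0 := by rw [hQ, mul_sub, mul_one, ← mul_assoc, h.pi, sub_self]
  have hWR : star W * R = 0 := by rw [hR, mul_sub, mul_one, ← mul_assoc, pi_star h.pi, sub_self]
  have hQe : Q * (Q - q a') = Q - q a' := by rw [mul_sub, hQp.isIdempotentElem.eq, hQa]
  have hRf : R * (R - p b') = R - p b' := by rw [mul_sub, hRp.isIdempotentElem.eq, hRb]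
  have z₁ : star W * w = 0 := by rw [← hw₂, ← hRf, mul_assoc, ← mul_assoc, hWR, zero_mul]
  have z₂ : star w * W = 0 := by
    have := congrArg star z₁
    rwa [star_mul, star_star, star_zero] at this
  have z₃ : W * star w = 0 := by
    rw [← hwe, star_mul, hep.isSelfAdjoint.star_eq, ← hQe, ← mul_assoc, ← mul_assoc, hWQ, zero_mul,
      zero_mul]
  have z₄ : w * star W = 0 := by
    have := congrArg star z₃
    rwa [star_mul, star_star, star_zero] at this
  have e₁ : star (W + w) * (W + w) = 1 - q a' := by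
    rw [star_add, add_mul, mul_add, mul_add, z₁, z₂, hw₁, hQ]; abel
  have e₂ : (W + w) * star (W + w) = W * star W + w * star w := by
    rw [star_add, add_mul, mul_add, mul_add, z₃, z₄]; abel
  have z₅ : star w * p b' = 0 := by
    rw [← hw₂, star_mul, hfp.isSelfAdjoint.star_eq, mul_assoc, sub_mul, hRb,
      (hp.proj b').isIdempotentElem.eq, sub_self, mul_zero]
  refine ⟨W + w, ⟨?_, ⟨a', ?_⟩, ⟨b', ?_⟩⟩, ⟨?_, ?_⟩, ?_⟩
  · rw [mul_assoc, e₁, mul_sub, mul_one, sub_eq_self, add_mul, ← hQa, ← mul_assoc, hWQ, zero_mul,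
      zero_add, hQa, ← hwe, mul_assoc, sub_mul, hQa, (hq.proj a').isIdempotentElem.eq, sub_self,
      mul_zero]
  · rw [e₁, sub_sub_cancel, (hq.proj a').isIdempotentElem.eq]
  · rw [e₂, ← sub_sub, ← hR, sub_mul, hRb, mul_assoc, z₅, mul_zero, sub_zero]
  · rw [add_mul, ← mul_assoc, ← mul_assoc, h.pi, z₄, zero_mul, add_zero]
  · rw [mul_add, h.pi, mul_assoc, z₁, mul_zero, add_zero]
  · rw [e₁, sub_sub_cancel, hq.toDec.mono' n a' (le_max_right _ _)]

lemma Pkg.both (P : Pkg B) {q p : ℕ → B} (hq : Good q) (hp : Good p) {W : B} (h : St q p W)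
    (n : ℕ) : ∃ W', St q p W' ∧ Ext W W' ∧ q n * (1 - star W' * W') = 1 - star W' * W' ∧
      p n * (1 - W' * star W') = 1 - W' * star W' := by
  obtain ⟨W₁, h₁, e₁, l₁⟩ := P.forth hq hp h n
  obtain ⟨W₂, h₂, e₂, l₂⟩ := P.forth hp hq h₁.symm n
  have e₂' : Ext W₁ (star W₂) := by simpa using e₂.symm
  refine ⟨star W₂, h₂.symm, e₁.trans h.pi e₂', ?_, by rwa [star_star]⟩
  have h3 := e₂'.le h₁.pi
  have h4 : (1 - star W₁ * W₁) * (1 - star (star W₂) * star W₂) = 1 - star (star W₂) * star W₂ := by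
    have h5 := congrArg star h3
    rw [star_mul, (pi_proj h₁.pi).isSelfAdjoint.star_eq,
      (pi_proj h₂.symm.pi).isSelfAdjoint.star_eq] at h5
    rw [sub_mul, one_mul, mul_sub, mul_one, h5, sub_self, sub_zero]
  rw [← h4, ← mul_assoc, l₁]

lemma Pkg.exists_seq (P : Pkg B) {q p : ℕ → B} (hq : Good q) (hp : Good p) :
    ∃ W : ℕ → B, (∀ k, St q p (W k)) ∧ (∀ k l, k ≤ l → Ext (W k) (W l)) ∧
      (∀ k, q k * (1 - star (W k) * W k) = 1 - star (W k) * W k) ∧
      (∀ k, p k * (1 - W k * star (W k)) = 1 - W k * star (W k)) := by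
  have key : ∀ (W : {W : B // St q p W}) (n : ℕ), ∃ W' : {W : B // St q p W}, Ext W.1 W'.1 ∧
      q n * (1 - star W'.1 * W'.1) = 1 - star W'.1 * W'.1 ∧
      p n * (1 - W'.1 * star W'.1) = 1 - W'.1 * star W'.1 := by
    rintro ⟨W, h⟩ n
    obtain ⟨W', h1, h2⟩ := P.both hq hp h n
    exact ⟨⟨W', h1⟩, h2⟩
  choose nx hnx using key
  let R : ℕ → {W : B // St q p W} := fun n =>
    Nat.rec ⟨0, ⟨by simp, ⟨0, by simp⟩, ⟨0, by simp⟩⟩⟩ (fun n r => nx r n) n
  refine ⟨fun k => (R (k + 1)).1, fun k => (R (k + 1)).2, fun k l h => ?_,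
    fun k => (hnx (R k) k).2.1, fun k => (hnx (R k) k).2.2⟩
  induction l, h using Nat.le_induction with
  | base => exact Ext.refl (R (k + 1)).2.pi
  | succ m _ ih => exact ih.trans (R (k + 1)).2.pi (hnx (R (m + 1)) (m + 1)).1

end

section
variable {K : Type*} [NormedAddCommGroup K] [InnerProductSpace ℂ K] [CompleteSpace K]
variable {D : StarSubalgebra ℂ (K →L[ℂ] K)}

structure Link (q p : ℕ → D) (v : K →L[ℂ] K) : Prop where
  u₁ : star v * v = 1
  u₂ : v * star v = 1
  α : ∀ n, v * (1 - (q n : K →L[ℂ] K)) ∈ D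
  β : ∀ n, star v * (1 - (p n : K →L[ℂ] K)) ∈ D
  γ : ∀ n, ∃ m, (p n : K →L[ℂ] K) * v * q m = v * q m
  δ : ∀ n, ∃ m, (q n : K →L[ℂ] K) * star v * p m = star v * p m

lemma Link.one {q : ℕ → D} (hq : Dec q) : Link q q 1 := by
  have h : ∀ n, (q n : K →L[ℂ] K) * q n = q n := fun n =>
    congrArg Subtype.val (hq.proj n).isIdempotentElem.eq
  refine ⟨by simp, by simp, fun n => ?_, fun n => ?_, fun n => ⟨n, by simp [h]⟩,
    fun n => ⟨n, by simp [h]⟩⟩
  · rw [one_mul]; exact sub_mem (one_mem D) (q n).2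
  · rw [star_one, one_mul]; exact sub_mem (one_mem D) (q n).2

lemma coe_proj {e : D} (he : IsStarProjection e) : IsStarProjection (e : K →L[ℂ] K) :=
  he.map D.subtype

lemma eq_one_of_tendsto {S : K →L[ℂ] K} {E : ℕ → K →L[ℂ] K}
    (h0 : ∀ x, Tendsto (fun k => (1 - E k) x) atTop (𝓝 0)) (h : ∀ k, S * E k = E k) : S = 1 := by
  ext x
  have h1 : Tendsto (fun k => E k x) atTop (𝓝 x) := by
    have := (tendsto_const_nhds (x := x)).sub (h0 x)
    simpa using this
  have h2 : Tendsto (fun k => S (E k x)) atTop (𝓝 (S x)) := (S.continuous.tendsto x).comp h1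
  have h3 : (fun k => S (E k x)) = fun k => E k x := by
    funext k
    change (S * E k) x = _
    rw [h]
  rw [h3] at h2
  exact tendsto_nhds_unique h2 h1

lemma Pkg.exists_link (P : Pkg D) {q p : ℕ → D} (hq : Good q) (hp : Good p)
    (hq0 : ∀ x, Tendsto (fun k => (q k : K →L[ℂ] K) x) atTop (𝓝 0))
    (hp0 : ∀ x, Tendsto (fun k => (p k : K →L[ℂ] K) x) atTop (𝓝 0)) : ∃ v, Link q p v := by
  obtain ⟨W₀, hS, hE, hQ, hR⟩ := P.exists_seq hq hp
  let W : ℕ → K →L[ℂ] K := fun k => W₀ k
  have hpi : ∀ k, W k * star (W k) * W k = W k := fun k => congrArg Subtype.val (hS k).pi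
  have hE₁ : ∀ k l, k ≤ l → W l * (star (W k) * W k) = W k := fun k l h =>
    congrArg Subtype.val (hE k l h).1
  have hE₂ : ∀ k l, k ≤ l → W k * star (W k) * W l = W k := fun k l h =>
    congrArg Subtype.val (hE k l h).2
  have hQ' : ∀ k, (q k : K →L[ℂ] K) * (1 - star (W k) * W k) = 1 - star (W k) * W k := fun k =>
    congrArg Subtype.val (hQ k)
  have hR' : ∀ k, (p k : K →L[ℂ] K) * (1 - W k * star (W k)) = 1 - W k * star (W k) := fun k =>
    congrArg Subtype.val (hR k)
  have flip : ∀ {e f : K →L[ℂ] K}, IsStarProjection e → IsStarProjection f → e * f = f →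
      f * e = f := fun {e f} he hf h => by
    have := congrArg star h
    rwa [star_mul, he.isSelfAdjoint.star_eq, hf.isSelfAdjoint.star_eq] at this
  have zero : ∀ {r F : ℕ → K →L[ℂ] K}, (∀ k, IsStarProjection (r k)) →
      (∀ k, IsStarProjection (F k)) → (∀ k, r k * F k = F k) →
      (∀ x, Tendsto (fun k => r k x) atTop (𝓝 0)) → ∀ x, Tendsto (fun k => F k x) atTop (𝓝 0) := by
    intro r F hr hF h h0 x
    refine squeeze_zero_norm (fun k => ?_) (tendsto_zero_iff_norm_tendsto_zero.1 (h0 x))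
    have : F k x = F k (r k x) := by
      change _ = (F k * r k) x
      rw [flip (hr k) (hF k) (h k)]
    rw [this]
    exact proj_norm_le (hF k) _
  have hQ0 := zero (fun k => coe_proj (hq.proj k)) (fun k => (pi_proj (hpi k)).one_sub) hQ' hq0
  have hR0 := zero (fun k => coe_proj (hp.proj k)) (fun k => (pi_proj' (hpi k)).one_sub) hR' hp0
  have hWn : ∀ k x, ‖W k x‖ ≤ ‖x‖ := by
    intro k x
    have h1 : ‖W k‖ * ‖W k‖ ≤ 1 := by
      rw [← CStarRing.norm_star_mul_self]; exact (pi_proj (hpi k)).norm_le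
    have h2 : ‖W k‖ ≤ 1 := by nlinarith [norm_nonneg (W k)]
    exact ((W k).le_opNorm x).trans (mul_le_of_le_one_left (norm_nonneg _) h2)
  have hcs : ∀ x, CauchySeq fun k => W k x := by
    intro x
    rw [Metric.cauchySeq_iff']
    intro ε hε
    obtain ⟨N, hN⟩ := (Metric.tendsto_atTop.1 (hQ0 x)) ε hε
    refine ⟨N, fun n hn => ?_⟩
    have h1 := hN N le_rfl
    rw [dist_zero_right] at h1
    rw [dist_eq_norm]
    have : W n x - W N x = W n ((1 - star (W N) * W N) x) := by
      change _ = (W n * (1 - star (W N) * W N)) x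
      rw [mul_sub, mul_one, hE₁ N n hn]; rfl
    rw [this]
    exact (hWn n _).trans_lt h1
  choose f hf using fun x => cauchySeq_tendsto_of_complete (hcs x)
  let v : K →L[ℂ] K := continuousLinearMapOfTendsto W (f := f) (tendsto_pi_nhds.2 hf)
  have hv : ∀ x, Tendsto (fun k => W k x) atTop (𝓝 (v x)) := hf
  have v₁ : ∀ k, v * (star (W k) * W k) = W k := by
    intro k
    ext x
    refine tendsto_nhds_unique (hv ((star (W k) * W k) x)) (tendsto_const_nhds.congr' ?_)
    filter_upwards [eventually_ge_atTop k] with l hl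
    change _ = (W l * (star (W k) * W k)) x
    rw [hE₁ k l hl]
  have v₂ : ∀ k, W k * star (W k) * v = W k := by
    intro k
    ext x
    refine tendsto_nhds_unique (((W k * star (W k)).continuous.tendsto _).comp (hv x))
      (tendsto_const_nhds.congr' ?_)
    filter_upwards [eventually_ge_atTop k] with l hl
    change _ = (W k * star (W k) * W l) x
    rw [hE₂ k l hl]
  have v₃ : ∀ k, star v * (W k * star (W k)) = star (W k) := fun k => by
    have := congrArg star (v₂ k)
    rwa [star_mul, star_mul, star_star] at this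
  have v₄ : ∀ k, star (W k) * W k * star v = star (W k) := fun k => by
    have := congrArg star (v₁ k)
    rwa [star_mul, star_mul, star_star] at this
  refine ⟨v, ?_, ?_, fun n => ?_, fun n => ?_, fun n => ?_, fun n => ?_⟩
  · refine eq_one_of_tendsto hQ0 fun k => ?_
    rw [mul_assoc, v₁]
    conv_lhs => rw [← hpi k, ← mul_assoc, v₃]
  · refine eq_one_of_tendsto hR0 fun k => ?_
    rw [mul_assoc, v₃]
    conv_lhs => rw [← pi_star (hpi k), ← mul_assoc, v₁]
  · have h1 := flip (coe_proj (hq.proj n)) (pi_proj (hpi n)).one_sub (hQ' n)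
    have h2 : star (W n) * W n * (1 - q n) = 1 - q n := by
      rw [sub_mul, one_mul, sub_eq_iff_eq_add] at h1
      rw [mul_sub, mul_one]
      conv_rhs => rw [h1]
      abel
    rw [← h2, ← mul_assoc, v₁]
    exact mul_mem (W₀ n).2 (sub_mem (one_mem D) (q n).2)
  · have h1 := flip (coe_proj (hp.proj n)) (pi_proj' (hpi n)).one_sub (hR' n)
    have h2 : W n * star (W n) * (1 - p n) = 1 - p n := by
      rw [sub_mul, one_mul, sub_eq_iff_eq_add] at h1
      rw [mul_sub, mul_one]
      conv_rhs => rw [h1]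
      abel
    rw [← h2, ← mul_assoc, v₃]
    exact mul_mem (star_mem (W₀ n).2) (sub_mem (one_mem D) (p n).2)
  · obtain ⟨a, ha⟩ := (hS n).lq
    have ha' : (1 - star (W n) * W n) * (q a : K →L[ℂ] K) = q a := congrArg Subtype.val ha
    have h1 : v * q a = (1 - W n * star (W n)) * v * q a := by
      conv_lhs => rw [← ha', ← mul_assoc, mul_sub, mul_one, v₁]
      rw [sub_mul 1, one_mul, v₂]
    refine ⟨a, ?_⟩
    rw [mul_assoc, h1, ← mul_assoc, ← mul_assoc, hR']
  · obtain ⟨a, ha⟩ := (hS n).lp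
    have ha' : (1 - W n * star (W n)) * (p a : K →L[ℂ] K) = p a := congrArg Subtype.val ha
    have h1 : star v * p a = (1 - star (W n) * W n) * star v * p a := by
      conv_lhs => rw [← ha', ← mul_assoc, mul_sub, mul_one, v₃]
      rw [sub_mul 1, one_mul, v₄]
    refine ⟨a, ?_⟩
    rw [mul_assoc, h1, ← mul_assoc, ← mul_assoc, hQ']

end

end Vale.Agent.P070
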