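import Vale.Agent.P070.Link

/-! The algebra generated by the UHF algebra and the shell unitaries. -/

namespace Vale.Agent.P070

open scoped InnerProductSpace
open Filter Topology

section
variable {K : Type*} [NormedAddCommGroup K] [InnerProductSpace ℂ K] [CompleteSpace K]

/-- The C*-algebra generated by a set of operators. -/
noncomputable def gen (G : Set (K →L[ℂ] K)) : StarSubalgebra ℂ (K →L[ℂ] K) :=
  (StarAlgebra.adjoin ℂ G).topologicalClosure

instance gen_closed (G : Set (K →L[ℂ] K)) : IsClosed (gen G : Set (K →L[ℂ] K)) :=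
  StarSubalgebra.isClosed_topologicalClosure _

lemma mem_gen {G : Set (K →L[ℂ] K)} {g : K →L[ℂ] K} (h : g ∈ G) : g ∈ gen G :=
  StarSubalgebra.le_topologicalClosure _ (StarAlgebra.subset_adjoin ℂ G h)

lemma gen_ind {G S : Set (K →L[ℂ] K)} (hc : IsClosed S) (hG : ∀ g ∈ G, g ∈ S ∧ star g ∈ S)
    (hs : ∀ c : ℂ, algebraMap ℂ (K →L[ℂ] K) c ∈ S) (ha : ∀ a ∈ S, ∀ b ∈ S, a + b ∈ S)
    (hm : ∀ a ∈ S, ∀ b ∈ S, a * b ∈ S) : ∀ a ∈ gen G, a ∈ S := by
  have h1 : ∀ a ∈ StarAlgebra.adjoin ℂ G, a ∈ S ∧ star a ∈ S := by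
    intro a h
    induction h using StarAlgebra.adjoin_induction with
    | mem x hx => exact hG x hx
    | algebraMap c => exact ⟨hs c, by rw [← algebraMap_star_comm]; exact hs _⟩
    | add x y _ _ hx hy => exact ⟨ha _ hx.1 _ hy.1, by rw [star_add]; exact ha _ hx.2 _ hy.2⟩
    | mul x y _ _ hx hy => exact ⟨hm _ hx.1 _ hy.1, by rw [star_mul]; exact hm _ hy.2 _ hx.2⟩
    | star x _ hx => exact ⟨hx.2, by rw [star_star]; exact hx.1⟩
  intro a h
  exact closure_minimal (fun b hb => (h1 b hb).1) hc h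

variable {D : StarSubalgebra ℂ (K →L[ℂ] K)}

lemma Dec.coe {q : ℕ → D} (h : Dec q) : Dec fun n => (q n : K →L[ℂ] K) :=
  ⟨fun n => coe_proj (h.proj n), fun n m hnm => congrArg Subtype.val (h.mono n m hnm)⟩

lemma norm_mul_mono {p : ℕ → K →L[ℂ] K} (hp : Dec p) (a : K →L[ℂ] K) {N M : ℕ} (h : N ≤ M) :
    ‖a * p M‖ ≤ ‖a * p N‖ := by
  rw [← hp.mono' N M h, ← mul_assoc]
  exact norm_pr (hp.proj M) _

/-- Operators that agree at infinity, up to a small error, with an element of `S`. -/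
def near (S : Submodule ℂ (K →L[ℂ] K)) (p : ℕ → K →L[ℂ] K) (hp : Dec p) :
    Submodule ℂ (K →L[ℂ] K) where
  carrier := {a | ∀ ε : ℝ, 0 < ε → ∃ s ∈ S, ∃ N, ‖(a - s) * p N‖ ≤ ε}
  zero_mem' := fun ε hε => ⟨0, S.zero_mem, 0, by simpa using hε.le⟩
  add_mem' := by
    intro a b ha hb ε hε
    obtain ⟨s, hs, N, h1⟩ := ha (ε / 2) (by positivity)
    obtain ⟨t, ht, M, h2⟩ := hb (ε / 2) (by positivity)
    refine ⟨s + t, S.add_mem hs ht, max N M, ?_⟩
    rw [add_sub_add_comm, add_mul]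
    have := norm_mul_mono hp (a - s) (le_max_left N M)
    have := norm_mul_mono hp (b - t) (le_max_right N M)
    exact (norm_add_le _ _).trans (by linarith)
  smul_mem' := by
    intro c a ha ε hε
    obtain ⟨s, hs, N, h1⟩ := ha (ε / (‖c‖ + 1)) (by positivity)
    refine ⟨c • s, S.smul_mem c hs, N, ?_⟩
    rw [← smul_sub, smul_mul_assoc, norm_smul]
    rw [le_div_iff₀ (by positivity)] at h1
    nlinarith [norm_nonneg ((a - s) * p N), norm_nonneg c]

lemma near_approx {S : Submodule ℂ (K →L[ℂ] K)} {p : ℕ → K →L[ℂ] K} {hp : Dec p}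
    {a : K →L[ℂ] K} (h : ∀ ε : ℝ, 0 < ε → ∃ b ∈ near S p hp, ∃ N, ‖(a - b) * p N‖ ≤ ε) :
    a ∈ near S p hp := by
  intro ε hε
  obtain ⟨b, hb, N, h1⟩ := h (ε / 2) (by positivity)
  obtain ⟨s, hs, M, h2⟩ := hb (ε / 2) (by positivity)
  refine ⟨s, hs, max N M, ?_⟩
  rw [← sub_add_sub_cancel a b s, add_mul]
  have := norm_mul_mono hp (a - b) (le_max_left N M)
  have := norm_mul_mono hp (b - s) (le_max_right N M)
  exact (norm_add_le _ _).trans (by linarith)

lemma near_mul {S : Submodule ℂ (K →L[ℂ] K)} {p : ℕ → K →L[ℂ] K} {hp : Dec p}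
    {x : K →L[ℂ] K} (hx : ∀ s ∈ S, x * s ∈ near S p hp) :
    ∀ a ∈ near S p hp, x * a ∈ near S p hp := by
  intro a ha
  refine near_approx fun ε hε => ?_
  obtain ⟨s, hs, N, h1⟩ := ha (ε / (‖x‖ + 1)) (by positivity)
  refine ⟨x * s, hx s hs, N, ?_⟩
  rw [← mul_sub, mul_assoc]
  refine (norm_mul_le _ _).trans ?_
  rw [le_div_iff₀ (by positivity)] at h1
  nlinarith [norm_nonneg ((a - s) * p N), norm_nonneg x]

lemma norm_unit {v : K →L[ℂ] K} (h : star v * v = 1) : ‖v‖ ≤ 1 := by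
  have h1 : ‖v‖ * ‖v‖ ≤ 1 := by
    rw [← CStarRing.norm_star_mul_self, h]; exact (IsStarProjection.one _).norm_le
  nlinarith [norm_nonneg v]

lemma norm_sandwich {v w a : K →L[ℂ] K} (hv : ‖v‖ ≤ 1) (hw : ‖w‖ ≤ 1) : ‖v * a * w‖ ≤ ‖a‖ :=
  (norm_mul_le _ _).trans ((mul_le_of_le_one_right (norm_nonneg _) hw).trans
    ((norm_mul_le _ _).trans (mul_le_of_le_one_left (norm_nonneg _) hv)))

theorem exc_gen {F : Set (ℕ → D)} (hG : ∀ q ∈ F, Good q) (hO : F.Pairwise Orth)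
    (v : F → K →L[ℂ] K) (o : F) (ho : v o = 1) (hL : ∀ i, Link i.1 o.1 (v i)) :
    ∀ a ∈ gen ((D : Set (K →L[ℂ] K)) ∪ Set.range v), Exc (fun n => (o.1 n : K →L[ℂ] K)) a := by
  let p : ℕ → K →L[ℂ] K := fun n => o.1 n
  have hdec : ∀ i : F, Dec fun n => (i.1 n : K →L[ℂ] K) := fun i => (hG i.1 i.2).toDec.coe
  have hp : Dec p := hdec o
  let S : Submodule ℂ (K →L[ℂ] K) :=
    Submodule.span ℂ {s | ∃ (d : D) (i : F), s = (d : K →L[ℂ] K) * star (v i)}
  have hS : ∀ d ∈ D, ∀ i, d * star (v i) ∈ S := fun d hd i =>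
    Submodule.subset_span ⟨⟨d, hd⟩, i, rfl⟩
  have hS1 : (1 : K →L[ℂ] K) ∈ S := by
    have := hS 1 (one_mem D) o
    rwa [ho, star_one, one_mul] at this
  have hSn : ∀ s ∈ S, s ∈ near S p hp := fun s hs ε hε => ⟨s, hs, 0, by simpa using hε.le⟩
  have hv : ∀ i, ‖v i‖ ≤ 1 := fun i => norm_unit (hL i).u₁
  have hv' : ∀ i, ‖star (v i)‖ ≤ 1 := fun i => by rw [norm_star]; exact hv i
  have hw : ∀ i N, ‖star (v i) * p N‖ ≤ 1 := fun i N => (norm_pr (hp.proj N) _).trans (hv' i)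
  have horth : ∀ i k : F, i ≠ k → ∀ (d : D) (ε : ℝ), 0 < ε →
      ∃ n, ‖(i.1 n : K →L[ℂ] K) * d * k.1 n‖ ≤ ε := fun i k h d ε hε =>
    hO i.2 k.2 (fun e => h (Subtype.ext e)) d ε hε
  have hexc : ∀ (i : F) (d : D) (ε : ℝ), 0 < ε → ∃ (c : ℂ) (n : ℕ),
      ‖(i.1 n : K →L[ℂ] K) * d * i.1 n - c • (i.1 n : K →L[ℂ] K)‖ ≤ ε := fun i d ε hε =>
    (hG i.1 i.2).exc d ε hε
  have hspan : ∀ x : K →L[ℂ] K, (∀ (d : D) (i : F), x * (d * star (v i)) ∈ near S p hp) →
      ∀ a ∈ near S p hp, x * a ∈ near S p hp := by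
    intro x hx
    refine near_mul fun s hs => ?_
    induction hs using Submodule.span_induction with
    | mem s hs => obtain ⟨d, i, rfl⟩ := hs; exact hx d i
    | zero => rw [mul_zero]; exact zero_mem _
    | add s t _ _ hs ht => rw [mul_add]; exact add_mem hs ht
    | smul c s _ hs => rw [mul_smul_comm]; exact Submodule.smul_mem _ c hs
  have hD : ∀ x ∈ D, ∀ a ∈ near S p hp, x * a ∈ near S p hp := fun x hx =>
    hspan x fun d i => hSn _ (by rw [← mul_assoc]; exact hS _ (mul_mem hx d.2) i)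
  have hV : ∀ i, ∀ a ∈ near S p hp, v i * a ∈ near S p hp := by
    intro i
    refine hspan _ fun d k ε hε => ?_
    by_cases hik : i = k
    · subst hik
      obtain ⟨c, n, hn⟩ := hexc i d ε hε
      obtain ⟨m, hm⟩ := (hL i).δ n
      refine ⟨v i * (1 - i.1 n) * d * star (v i) + c • 1,
        add_mem (hS _ (mul_mem ((hL i).α n) d.2) i) (S.smul_mem c hS1), m, ?_⟩
      have : (v i * (d * star (v i)) - (v i * (1 - i.1 n) * d * star (v i) + c • 1)) * p m =
          v i * ((i.1 n : K →L[ℂ] K) * d * i.1 n - c • (i.1 n : K →L[ℂ] K)) *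
            (star (v i) * p m) := by
        have e1 : v i * ((i.1 n : K →L[ℂ] K) * d * i.1 n - c • (i.1 n : K →L[ℂ] K)) *
            (star (v i) * p m) = v i * i.1 n * d * (i.1 n * star (v i) * p m) -
              c • (v i * (i.1 n * star (v i) * p m)) := by
          simp only [mul_sub, sub_mul, mul_smul_comm, smul_mul_assoc, mul_assoc]
        rw [e1, hm, ← mul_assoc (v i) (star (v i)), (hL i).u₂]
        simp only [mul_sub, sub_mul, add_mul, mul_one, one_mul, smul_mul_assoc, mul_assoc]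
        abel
      rw [this]
      exact (norm_sandwich (hv i) (hw i m)).trans hn
    · obtain ⟨n, hn⟩ := horth i k hik d ε hε
      obtain ⟨m, hm⟩ := (hL k).δ n
      refine ⟨v i * (1 - i.1 n) * d * star (v k), hS _ (mul_mem ((hL i).α n) d.2) k, m, ?_⟩
      have : (v i * (d * star (v k)) - v i * (1 - i.1 n) * d * star (v k)) * p m =
          v i * ((i.1 n : K →L[ℂ] K) * d * k.1 n) * (star (v k) * p m) := by
        have e1 : v i * ((i.1 n : K →L[ℂ] K) * d * k.1 n) * (star (v k) * p m) =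
            v i * i.1 n * d * (k.1 n * star (v k) * p m) := by simp only [mul_assoc]
        rw [e1, hm]
        simp only [mul_sub, sub_mul, mul_one, one_mul, mul_assoc]
        abel
      rw [this]
      exact (norm_sandwich (hv i) (hw k m)).trans hn
  have hV' : ∀ i, ∀ a ∈ near S p hp, star (v i) * a ∈ near S p hp := by
    intro i
    refine hspan _ fun d k ε hε => ?_
    by_cases hok : o = k
    · subst hok
      obtain ⟨c, n, hn⟩ := hexc o d ε hε
      refine ⟨star (v i) * (1 - p n) * d * star (v o) + c • (1 * star (v i)),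
        add_mem (hS _ (mul_mem ((hL i).β n) d.2) o) (S.smul_mem c (hS _ (one_mem D) i)), n, ?_⟩
      have : (star (v i) * (d * star (v o)) -
          (star (v i) * (1 - p n) * d * star (v o) + c • (1 * star (v i)))) * p n =
          star (v i) * (p n * d * p n - c • p n) * 1 := by
        rw [ho, star_one]
        simp only [mul_sub, sub_mul, add_mul, mul_one, one_mul, smul_mul_assoc, mul_assoc,
          mul_smul_comm]
        abel
      rw [this]
      exact (norm_sandwich (hv' i) (IsStarProjection.one _).norm_le).trans hn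
    · obtain ⟨n, hn⟩ := horth o k hok d ε hε
      obtain ⟨m, hm⟩ := (hL k).δ n
      refine ⟨star (v i) * (1 - p n) * d * star (v k), hS _ (mul_mem ((hL i).β n) d.2) k, m, ?_⟩
      have : (star (v i) * (d * star (v k)) - star (v i) * (1 - p n) * d * star (v k)) * p m =
          star (v i) * (p n * d * k.1 n) * (star (v k) * p m) := by
        have e1 : star (v i) * (p n * d * k.1 n) * (star (v k) * p m) =
            star (v i) * p n * d * (k.1 n * star (v k) * p m) := by simp only [mul_assoc]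
        rw [e1, hm]
        simp only [mul_sub, sub_mul, mul_one, one_mul, mul_assoc]
        abel
      rw [this]
      exact (norm_sandwich (hv' i) (hw k m)).trans hn
  have hall := gen_ind (G := (D : Set (K →L[ℂ] K)) ∪ Set.range v)
    (S := {x | ∀ a ∈ near S p hp, x * a ∈ near S p hp}) (by
      rw [← closure_subset_iff_isClosed]
      intro x hx a ha
      refine near_approx fun ε hε => ?_
      obtain ⟨y, hy, hxy⟩ := Metric.mem_closure_iff.1 hx (ε / (‖a‖ + 1)) (by positivity)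
      refine ⟨y * a, hy a ha, 0, (norm_pr (hp.proj 0) _).trans ?_⟩
      rw [← sub_mul]
      refine (norm_mul_le _ _).trans ?_
      rw [dist_eq_norm, lt_div_iff₀ (by positivity)] at hxy
      nlinarith [norm_nonneg (x - y), norm_nonneg a])
    (by
      rintro g (hg | ⟨i, rfl⟩)
      · exact ⟨hD g hg, hD _ (star_mem hg)⟩
      · exact ⟨hV i, hV' i⟩)
    (fun c => hD _ (D.algebraMap_mem c))
    (fun a ha b hb x hx => by rw [add_mul]; exact add_mem (ha x hx) (hb x hx))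
    (fun a ha b hb x hx => by rw [mul_assoc]; exact ha _ (hb x hx))
  have hSexc : ∀ s ∈ S, Exc p s := by
    intro s hs
    induction hs using Submodule.span_induction with
    | mem s hs =>
      obtain ⟨d, k, rfl⟩ := hs
      intro ε hε
      by_cases hok : o = k
      · subst hok
        rw [ho, star_one, mul_one]
        exact hexc o d ε hε
      · obtain ⟨n, hn⟩ := horth o k hok d ε hε
        obtain ⟨m, hm⟩ := (hL k).δ n
        refine ⟨0, max n m, ?_⟩
        have : p (max n m) * (d * star (v k)) * p (max n m) - (0 : ℂ) • p (max n m) =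
            p (max n m) * (p n * d * k.1 n) * (star (v k) * p m * p (max n m)) := by
          have e1 : p (max n m) * (p n * d * k.1 n) * (star (v k) * p m * p (max n m)) =
              p (max n m) * p n * d * (k.1 n * star (v k) * p m * p (max n m)) := by
            simp only [mul_assoc]
          rw [e1, hm, hp.mono n _ (le_max_left _ _), mul_assoc (star (v k)),
            hp.mono' m _ (le_max_right _ _), zero_smul, sub_zero]
          simp only [mul_assoc]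
        rw [this]
        exact (norm_sandwich (hp.proj _).norm_le ((norm_pr (hp.proj _) _).trans (hw k m))).trans hn
    | zero => exact Exc.zero _
    | add s t _ _ hs ht => exact hs.add hp ht
    | smul c s _ hs => exact hs.smul c
  intro a ha ε hε
  have h1 := hall a ha 1 (hSn 1 hS1)
  rw [mul_one] at h1
  obtain ⟨s, hs, N, h2⟩ := h1 (ε / 2) (by positivity)
  obtain ⟨c, M, h3⟩ := hSexc s hs (ε / 2) (by positivity)
  refine ⟨c, max N M, ?_⟩
  have h4 := hp.exc_mono s c (le_max_right N M)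
  have h5 := norm_mul_mono hp (a - s) (le_max_left N M)
  have h6 := norm_pl (hp.proj (max N M)) ((a - s) * p (max N M))
  have : p (max N M) * a * p (max N M) - c • p (max N M) =
      p (max N M) * ((a - s) * p (max N M)) + (p (max N M) * s * p (max N M) - c • p (max N M)) := by
    simp only [mul_sub, sub_mul, mul_assoc]; abel
  change ‖p (max N M) * a * p (max N M) - c • p (max N M)‖ ≤ ε
  rw [this]
  exact (norm_add_le _ _).trans (by linarith)

variable {H : Type*} [NormedAddCommGroup H] [InnerProductSpace ℂ H] [CompleteSpace H]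

theorem capture (P : Pkg D) {F : Set (ℕ → D)} (hG : ∀ q ∈ F, Good q)
    (hmax : ∀ r, Good r → r ∈ F ∨ ∃ q ∈ F, ¬ Orth q r) (v : F → K →L[ℂ] K)
    (hL : ∀ i, ∃ j : F, Link i.1 j.1 (v i))
    (hDA : D ≤ gen ((D : Set (K →L[ℂ] K)) ∪ Set.range v)) [Nontrivial H]
    (ρ : gen ((D : Set (K →L[ℂ] K)) ∪ Set.range v) →⋆ₐ[ℂ] (H →L[ℂ] H)) (hρ : Irr ρ) :
    ∃ (i : F) (ζ : H), ζ ≠ 0 ∧ ∀ n, ρ (StarSubalgebra.inclusion hDA (i.1 n)) ζ = ζ := by
  let σ : D →⋆ₐ[ℂ] (H →L[ℂ] H) := ρ.comp (StarSubalgebra.inclusion hDA)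
  have hc : ∀ a, ‖σ a‖ ≤ ‖a‖ := fun a =>
    NonUnitalStarAlgHom.norm_apply_le ρ (StarSubalgebra.inclusion hDA a)
  by_contra hcon
  have h0 : ∀ (i : F) (x : H), Tendsto (fun n => σ (i.1 n) x) atTop (𝓝 0) := by
    intro i x
    obtain ⟨z, hz, hf⟩ := rep_dec σ (hG i.1 i.2).toDec x
    have : z = 0 := by
      by_contra hne
      exact hcon ⟨i, z, hne, hf⟩
    rwa [this] at hz
  have hσ : Irr σ := by
    intro L hLc hinv
    apply hρ L hLc
    have lim : ∀ (a : gen ((D : Set (K →L[ℂ] K)) ∪ Set.range v)) (j : F),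
        (∀ n, (a : K →L[ℂ] K) * (1 - (j.1 n : K →L[ℂ] K)) ∈ D) → ∀ x ∈ L, ρ a x ∈ L := by
      intro a j hj x hx
      have h1 : Tendsto (fun n => ρ a (x - σ (j.1 n) x)) atTop (𝓝 (ρ a (x - 0))) :=
        ((ρ a).continuous.tendsto _).comp (tendsto_const_nhds.sub (h0 j x))
      rw [sub_zero] at h1
      refine hLc.mem_of_tendsto h1 (Eventually.of_forall fun n => ?_)
      have h2 : σ ⟨_, hj n⟩ = ρ a * (1 - σ (j.1 n)) := by
        change ρ _ = ρ a * (1 - ρ _)
        rw [← map_one ρ, ← map_sub, ← map_mul]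
        rfl
      have h3 := hinv ⟨_, hj n⟩ x hx
      rw [h2] at h3
      exact h3
    have hall := gen_ind (G := (D : Set (K →L[ℂ] K)) ∪ Set.range v)
      (S := Subtype.val '' {a : gen ((D : Set (K →L[ℂ] K)) ∪ Set.range v) | ∀ x ∈ L, ρ a x ∈ L})
      (by
        apply (gen_closed _).isClosedMap_subtype_val
        have hcont : Continuous ρ := AddMonoidHomClass.continuous_of_bound ρ 1 fun a => by
          rw [one_mul]; exact NonUnitalStarAlgHom.norm_apply_le ρ a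
        simp only [Set.ofPred_forall]
        refine isClosed_iInter fun x => isClosed_iInter fun _ => ?_
        exact hLc.preimage (f := fun a => ρ a x) (by fun_prop))
      (by
        rintro g (hg | ⟨i, rfl⟩)
        · exact ⟨⟨⟨g, hDA hg⟩, hinv ⟨g, hg⟩, rfl⟩,
            ⟨⟨star g, hDA (star_mem hg)⟩, hinv ⟨star g, star_mem hg⟩, rfl⟩⟩
        · obtain ⟨j, hj⟩ := hL i
          have hm : v i ∈ gen ((D : Set (K →L[ℂ] K)) ∪ Set.range v) := mem_gen (Or.inr ⟨i, rfl⟩)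
          exact ⟨⟨⟨v i, hm⟩, lim ⟨v i, hm⟩ i hj.α, rfl⟩,
            ⟨⟨star (v i), star_mem hm⟩, lim ⟨star (v i), star_mem hm⟩ j hj.β, rfl⟩⟩)
      (fun c => ⟨⟨_, hDA (D.algebraMap_mem c)⟩, hinv ⟨_, D.algebraMap_mem c⟩, rfl⟩)
      (by
        rintro _ ⟨a, ha, rfl⟩ _ ⟨b, hb, rfl⟩
        refine ⟨a + b, fun x hx => ?_, rfl⟩
        rw [map_add]
        exact L.add_mem (ha x hx) (hb x hx))
      (by
        rintro _ ⟨a, ha, rfl⟩ _ ⟨b, hb, rfl⟩
        refine ⟨a * b, fun x hx => ?_, rfl⟩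
        rw [rep_mul]
        exact ha _ (hb x hx))
    intro a
    obtain ⟨b, hb, e⟩ := hall a.1 a.2
    rw [← Subtype.ext e]
    exact hb
  obtain ⟨r, hr, ζ, hζ, hfix⟩ := P.exists_good hσ
  rcases hmax r hr with h | ⟨q, hq, hno⟩
  · exact hcon ⟨⟨r, h⟩, ζ, hζ, hfix⟩
  · obtain ⟨ζ', h1, h2⟩ := fixed_of_not_orth hc (hG q hq).toDec hr hζ hfix hno
    exact hcon ⟨⟨q, hq⟩, ζ', h1, h2⟩

theorem capture' (P : Pkg D) {F : Set (ℕ → D)} (hG : ∀ q ∈ F, Good q)
    (hmax : ∀ r, Good r → r ∈ F ∨ ∃ q ∈ F, ¬ Orth q r) (v : F → K →L[ℂ] K) (o : F)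
    (hL : ∀ i, Link i.1 o.1 (v i))
    (hDA : D ≤ gen ((D : Set (K →L[ℂ] K)) ∪ Set.range v)) [Nontrivial H]
    (ρ : gen ((D : Set (K →L[ℂ] K)) ∪ Set.range v) →⋆ₐ[ℂ] (H →L[ℂ] H)) (hρ : Irr ρ) :
    ∃ ζ : H, ‖ζ‖ = 1 ∧ ∀ n, ρ (StarSubalgebra.inclusion hDA (o.1 n)) ζ = ζ := by
  obtain ⟨i, ζ, hζ, hf⟩ := capture P hG hmax v (fun i => ⟨o, hL i⟩) hDA ρ hρ
  have hm : v i ∈ gen ((D : Set (K →L[ℂ] K)) ∪ Set.range v) := mem_gen (Or.inr ⟨i, rfl⟩)
  let w : gen ((D : Set (K →L[ℂ] K)) ∪ Set.range v) := ⟨v i, hm⟩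
  have h1 : ρ w ζ ≠ 0 := by
    intro h
    have e : star w * w = 1 := Subtype.ext (hL i).u₁
    have := rep_mul ρ (star w) w ζ
    rw [e, h, map_zero, map_one] at this
    exact hζ this
  refine ⟨((‖ρ w ζ‖⁻¹ : ℝ) : ℂ) • ρ w ζ, ?_, fun n => ?_⟩
  · rw [norm_smul, Complex.norm_real, Real.norm_of_nonneg (by positivity)]
    exact inv_mul_cancel₀ (norm_ne_zero_iff.2 h1)
  · obtain ⟨m, hm'⟩ := (hL i).γ n
    have e : StarSubalgebra.inclusion hDA (o.1 n) * w * StarSubalgebra.inclusion hDA (i.1 m) =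
        w * StarSubalgebra.inclusion hDA (i.1 m) := Subtype.ext hm'
    have := congrArg (fun a => ρ a ζ) e
    simp only [rep_mul, hf m] at this
    rw [map_smul, this]

theorem exists_algebra (P : Pkg D)
    (hstrong : ∀ (x : K) (ε : ℝ), 0 < ε → ∃ δ : ℝ, 0 < δ ∧ ∀ e : D, IsStarProjection e →
      (P.τ e).re ≤ δ → ‖(e : K →L[ℂ] K) x‖ ≤ ε) :
    ∃ G : Set (K →L[ℂ] K), D ≤ gen G ∧
      ∀ (H₁ : Type*) [NormedAddCommGroup H₁] [InnerProductSpace ℂ H₁] [CompleteSpace H₁]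
        [Nontrivial H₁] (H₂ : Type*) [NormedAddCommGroup H₂] [InnerProductSpace ℂ H₂]
        [CompleteSpace H₂] [Nontrivial H₂] (ρ₁ : gen G →⋆ₐ[ℂ] (H₁ →L[ℂ] H₁))
        (ρ₂ : gen G →⋆ₐ[ℂ] (H₂ →L[ℂ] H₂)), Irr ρ₁ → Irr ρ₂ →
        ∃ U : H₁ ≃ₗᵢ[ℂ] H₂, ∀ a x, U (ρ₁ a x) = ρ₂ a (U x) := by
  obtain ⟨F, hG, hO, hmax⟩ := exists_family D
  have h0 : ∀ q : ℕ → D, Good q → ∀ x, Tendsto (fun k => (q k : K →L[ℂ] K) x) atTop (𝓝 0) := by
    intro q hq x
    rw [Metric.tendsto_atTop]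
    intro ε hε
    obtain ⟨δ, hδ, h⟩ := hstrong x (ε / 2) (by positivity)
    obtain ⟨N, hN⟩ := P.small hq hδ
    refine ⟨N, fun n hn => ?_⟩
    rw [dist_zero_right]
    have := h (q n) (hq.proj n) ((P.anti hq.toDec hn).trans hN)
    linarith
  obtain ⟨v, hv⟩ : ∃ v : F → K →L[ℂ] K,
      Nonempty F → ∃ o : F, v o = 1 ∧ ∀ i, Link i.1 o.1 (v i) := by
    by_cases h : Nonempty F
    · obtain ⟨o⟩ := h
      have : ∀ i : F, ∃ w, Link i.1 o.1 w ∧ (i = o → w = 1) := by
        intro i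
        by_cases hi : i = o
        · subst hi
          exact ⟨1, Link.one (hG i.1 i.2).toDec, fun _ => rfl⟩
        · obtain ⟨w, hw⟩ := P.exists_link (hG i.1 i.2) (hG o.1 o.2) (h0 _ (hG i.1 i.2))
            (h0 _ (hG o.1 o.2))
          exact ⟨w, hw, fun h => absurd h hi⟩
      choose v hv using this
      exact ⟨v, fun _ => ⟨o, (hv o).2 rfl, fun i => (hv i).1⟩⟩
    · exact ⟨fun _ => 1, fun h' => absurd h' h⟩
  have hDA : D ≤ gen ((D : Set (K →L[ℂ] K)) ∪ Set.range v) := fun d hd => mem_gen (Or.inl hd)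
  refine ⟨_, hDA, fun H₁ _ _ _ _ H₂ _ _ _ _ ρ₁ ρ₂ h₁ h₂ => ?_⟩
  obtain ⟨i, -⟩ := capture P hG hmax v
    (fun i => let ⟨o, _, h⟩ := hv ⟨i⟩; ⟨o, h i⟩) hDA ρ₁ h₁
  obtain ⟨o, ho, hL⟩ := hv ⟨i⟩
  obtain ⟨ζ₁, n₁, f₁⟩ := capture' P hG hmax v o hL hDA ρ₁ h₁
  obtain ⟨ζ₂, n₂, f₂⟩ := capture' P hG hmax v o hL hDA ρ₂ h₂
  refine equiv_of_state h₁ h₂ ζ₁ ζ₂ (by rintro rfl; simp at n₁) (by rintro rfl; simp at n₂)
    fun a => ?_
  refine eq_of_forall_dist_le fun ε hε => ?_
  obtain ⟨c, N, hN⟩ := exc_gen hG hO v o ho hL a.1 a.2 (ε / 2) (by positivity)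
  have hp : IsStarProjection (StarSubalgebra.inclusion hDA (o.1 N)) :=
    ((hG o.1 o.2).proj N).map _
  have e₁ := exc_state (ρ := ρ₁) (NonUnitalStarAlgHom.norm_apply_le ρ₁) hp (f₁ N) a c
  have e₂ := exc_state (ρ := ρ₂) (NonUnitalStarAlgHom.norm_apply_le ρ₂) hp (f₂ N) a c
  rw [n₁] at e₁
  rw [n₂] at e₂
  have hN' : ‖StarSubalgebra.inclusion hDA (o.1 N) * a * StarSubalgebra.inclusion hDA (o.1 N) -
    c • StarSubalgebra.inclusion hDA (o.1 N)‖ ≤ ε / 2 := hN
  rw [one_pow, mul_one] at e₁ e₂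
  have := dist_triangle_right ⟪ζ₁, ρ₁ a ζ₁⟫_ℂ ⟪ζ₂, ρ₂ a ζ₂⟫_ℂ (c * ((1 : ℝ) : ℂ))
  rw [dist_eq_norm ⟪ζ₁, ρ₁ a ζ₁⟫_ℂ (c * _), dist_eq_norm ⟪ζ₂, ρ₂ a ζ₂⟫_ℂ] at this
  linarith

end

section
variable {A : Type*} [CStarAlgebra A]
variable {H : Type*} [NormedAddCommGroup H] [InnerProductSpace ℂ H] [CompleteSpace H]

lemma unital_of_irr (π : A →⋆ₙₐ[ℂ] (H →L[ℂ] H)) (h0 : ∃ a, π a ≠ 0)
    (h : ∀ L : Submodule ℂ H, IsClosed (L : Set H) → (∀ a, ∀ x ∈ L, π a x ∈ L) → L = ⊥ ∨ L = ⊤) :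
    Nontrivial H ∧ ∃ ρ : A →⋆ₐ[ℂ] (H →L[ℂ] H), Irr ρ ∧ ∀ a, ρ a = π a := by
  obtain ⟨a₀, ha₀⟩ := h0
  have h1 : π 1 = 1 := by
    rcases h (LinearMap.ker (π 1 - 1 : H →L[ℂ] H).toLinearMap) (ContinuousLinearMap.isClosed_ker _)
      (by
        intro a x hx
        have hx' : π 1 x - x = 0 := hx
        change (π 1 * π a) x - π a x = 0
        rw [← map_mul, one_mul, sub_self]) with h' | h'
    · exfalso
      apply ha₀
      ext x
      have : π a₀ x ∈ LinearMap.ker (π 1 - 1 : H →L[ℂ] H).toLinearMap := by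
        change (π 1 * π a₀) x - π a₀ x = 0
        rw [← map_mul, one_mul, sub_self]
      rw [h'] at this
      simpa using this
    · ext x
      have : x ∈ LinearMap.ker (π 1 - 1 : H →L[ℂ] H).toLinearMap := by rw [h']; trivial
      have hx : π 1 x - x = 0 := this
      exact sub_eq_zero.1 hx
  refine ⟨?_, { toFun := π
                map_one' := h1
                map_mul' := map_mul π
                map_zero' := map_zero π
                map_add' := map_add π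
                commutes' := fun c => by
                  rw [Algebra.algebraMap_eq_smul_one, map_smul, h1, Algebra.algebraMap_eq_smul_one]
                map_star' := map_star π }, h, fun _ => rfl⟩
  by_contra hn
  rw [not_nontrivial_iff_subsingleton] at hn
  exact ha₀ (Subsingleton.elim _ _)

lemma finite_of_compact (Φ : A →⋆ₙₐ[ℂ] (H →L[ℂ] H)) (hi : Function.Injective Φ)
    (hr : Set.range Φ = {T : H →L[ℂ] H | IsCompactOperator T}) : FiniteDimensional ℂ A := by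
  have h1 : Φ 1 = 1 := by
    ext x
    by_cases hx : x = 0
    · simp [hx]
    have hT : IsCompactOperator (ContinuousLinearMap.toSpanSingleton ℂ x ∘L innerSL ℂ x) :=
      ((isCompactOperator_id (E := ℂ)).comp_clm (innerSL ℂ x)).clm_comp
        (ContinuousLinearMap.toSpanSingleton ℂ x)
    obtain ⟨a, ha⟩ : (ContinuousLinearMap.toSpanSingleton ℂ x ∘L innerSL ℂ x) ∈ Set.range Φ := by
      rw [hr]; exact hT
    have h2 : Φ 1 (Φ a x) = Φ a x := by
      change (Φ 1 * Φ a) x = _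
      rw [← map_mul, one_mul]
    rw [ha] at h2
    change Φ 1 (⟪x, x⟫_ℂ • x) = ⟪x, x⟫_ℂ • x at h2
    rw [map_smul] at h2
    exact smul_right_injective H (inner_self_ne_zero.2 hx) h2
  have h2 : IsCompactOperator (Φ 1) := by
    have : Φ 1 ∈ Set.range Φ := ⟨1, rfl⟩
    rw [hr] at this
    exact this
  rw [h1] at h2
  have : FiniteDimensional ℂ H := FiniteDimensional.of_isCompactOperator_id h2
  exact FiniteDimensional.of_injective (Φ : A →ₗ[ℂ] (H →L[ℂ] H)) hi

end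

end Vale.Agent.P070
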