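import Vale.Agent.P070.Tower

/-! A concrete tower: the tracial representation of the CAR algebra. -/

namespace Vale.Agent.P070

open scoped InnerProductSpace ComplexOrder Matrix.Norms.L2Operator ENNReal
open Filter Topology Matrix

/-- Index sets of size `2 ^ k`. -/
def Sx : ℕ → Type
  | 0 => Unit
  | k + 1 => Sx k × Bool

instance sxFin : ∀ k, Fintype (Sx k)
  | 0 => inferInstanceAs (Fintype Unit)
  | k + 1 => @instFintypeProd (Sx k) Bool (sxFin k) inferInstance

instance sxDec : ∀ k, DecidableEq (Sx k)
  | 0 => inferInstanceAs (DecidableEq Unit)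
  | k + 1 => @instDecidableEqProd (Sx k) Bool (sxDec k) inferInstance

lemma sx_card (k : ℕ) : Fintype.card (Sx k) = 2 ^ k := by
  induction k with
  | zero => rfl
  | succ k ih =>
    change Fintype.card (Sx k × Bool) = _
    rw [Fintype.card_prod, ih, pow_succ]; rfl

abbrev Mx (k : ℕ) := Matrix (Sx k) (Sx k) ℂ

/-- The embedding of one level into the next one. -/
noncomputable def emb (k : ℕ) : Mx k →⋆ₙₐ[ℂ] Mx (k + 1) where
  toFun a := blockDiagonal fun _ : Bool => a
  map_smul' c a := blockDiagonal_smul c fun _ : Bool => a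
  map_zero' := blockDiagonal_zero
  map_add' a b := blockDiagonal_add (fun _ : Bool => a) fun _ => b
  map_mul' a b := blockDiagonal_mul (fun _ : Bool => a) fun _ => b
  map_star' a := (blockDiagonal_conjTranspose fun _ : Bool => a).symm

lemma emb_one (k : ℕ) : emb k 1 = 1 := blockDiagonal_one (m := Sx k) (o := Bool)

/-- The normalized trace. -/
noncomputable def ntr (k : ℕ) (a : Mx k) : ℂ := a.trace / Fintype.card (Sx k)

lemma ntr_emb (k : ℕ) (a : Mx k) : ntr (k + 1) (emb k a) = ntr k a := by
  have : (emb k a).trace = ∑ _ : Bool, a.trace := trace_blockDiagonal fun _ : Bool => a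
  rw [ntr, ntr, this, sx_card, sx_card]
  simp only [Finset.sum_const, Finset.card_univ, Fintype.card_bool, nsmul_eq_mul]
  push_cast
  field_simp
  ring

lemma ntr_le (k : ℕ) (a : Mx k) : ‖ntr k a‖ ≤ ‖a‖ := by
  have h : ∀ i, ‖a i i‖ ≤ ‖a‖ := by
    intro i
    have h1 := a.l2_opNorm_mulVec (EuclideanSpace.single i 1)
    have h2 := PiLp.norm_apply_le
      ((EuclideanSpace.equiv (Sx k) ℂ).symm <| a *ᵥ (EuclideanSpace.single i (1 : ℂ))) i
    simp only [PiLp.norm_single, norm_one, mul_one] at h1
    refine le_trans (le_of_eq ?_) (h2.trans h1)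
    simp
  have hc : (0 : ℝ) < Fintype.card (Sx k) := by rw [sx_card]; positivity
  rw [ntr, norm_div, Complex.norm_natCast, div_le_iff₀ hc]
  refine (norm_sum_le _ _).trans ((Finset.sum_le_sum fun i _ => h i).trans (le_of_eq ?_))
  simp [mul_comm]

/-- The compatible embeddings of level `m` into all levels (zero below `m`). -/
noncomputable def lift (m : ℕ) : ∀ k, Mx m →⋆ₙₐ[ℂ] Mx k
  | 0 => if h : m = 0 then h ▸ NonUnitalStarAlgHom.id ℂ (Mx m) else 0
  | k + 1 => if h : m = k + 1 then h ▸ NonUnitalStarAlgHom.id ℂ (Mx m)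
      else (emb k).comp (lift m k)

lemma lift_self (m : ℕ) (a : Mx m) : lift m m a = a := by
  cases m <;> simp [lift]

lemma lift_succ {m k : ℕ} (h : m ≤ k) (a : Mx m) : lift m (k + 1) a = emb k (lift m k a) := by
  rw [lift, dif_neg (by omega)]; rfl

lemma lift_emb {m k : ℕ} (h : m + 1 ≤ k) (a : Mx m) : lift (m + 1) k (emb m a) = lift m k a := by
  induction k, h using Nat.le_induction with
  | base => rw [lift_self, lift_succ le_rfl, lift_self]
  | succ k h ih => rw [lift_succ h, lift_succ (by omega), ih]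

lemma lift_one {m k : ℕ} (h : m ≤ k) : lift m k 1 = 1 := by
  induction k, h using Nat.le_induction with
  | base => rw [lift_self]
  | succ k h ih => rw [lift_succ h, ih, emb_one]

lemma ntr_lift {m k : ℕ} (h : m ≤ k) (a : Mx m) : ntr k (lift m k a) = ntr m a := by
  induction k, h using Nat.le_induction with
  | base => rw [lift_self]
  | succ k h ih => rw [lift_succ h, ntr_emb, ih]

/-- The product of all levels. -/
def CC : Type := lp Mx ∞

noncomputable instance ccAlg : NonUnitalCStarAlgebra CC :=
  inferInstanceAs (NonUnitalCStarAlgebra (lp Mx ∞))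

instance ccCoe : CoeFun CC fun _ => ∀ k, Mx k := ⟨fun b => (show lp Mx ∞ from b).1⟩

noncomputable instance ccOrd : PartialOrder CC := CStarAlgebra.spectralOrder CC

instance ccStarOrd : StarOrderedRing CC := CStarAlgebra.spectralOrderedRing CC

/-- Level `m` inside the product algebra. -/
noncomputable def LL (m : ℕ) : Mx m →⋆ₙₐ[ℂ] CC where
  toFun a := ⟨fun k => lift m k a, memℓp_infty ⟨‖a‖, by
    rintro _ ⟨k, rfl⟩
    exact NonUnitalStarAlgHom.norm_apply_le (lift m k) a⟩⟩
  map_smul' c a := lp.ext (funext fun k => map_smul (lift m k) c a)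
  map_zero' := lp.ext (funext fun k => map_zero (lift m k))
  map_add' a b := lp.ext (funext fun k => map_add (lift m k) a b)
  map_mul' a b := lp.ext (funext fun k => map_mul (lift m k) a b)
  map_star' a := lp.ext (funext fun k => map_star (lift m k) a)

lemma exists_lim (b : CC) : ∃ z, Tendsto (fun k => ntr k (b k)) (hyperfilter ℕ) (𝓝 z) := by
  obtain ⟨z, -, hz⟩ := (isCompact_closedBall (0 : ℂ) ‖b‖).ultrafilter_le_nhds
    ((hyperfilter ℕ).map fun k => ntr k (b k)) (by
      rw [Ultrafilter.coe_map, le_principal_iff, mem_map]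
      refine Eventually.of_forall fun k => ?_
      simp only [mem_closedBall_zero_iff]
      exact (ntr_le k _).trans (lp.norm_apply_le_norm ENNReal.top_ne_zero b k))
  exact ⟨z, hz⟩

/-- The limit trace. -/
noncomputable def tl (b : CC) : ℂ := (exists_lim b).choose

lemma tl_spec (b : CC) : Tendsto (fun k => ntr k (b k)) (hyperfilter ℕ) (𝓝 (tl b)) :=
  (exists_lim b).choose_spec

lemma tl_eq {b : CC} {z : ℂ} (h : ∀ᶠ k in atTop, ntr k (b k) = z) : tl b = z := by
  refine tendsto_nhds_unique (tl_spec b) (tendsto_const_nhds.congr' ?_)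
  have : (hyperfilter ℕ : Filter ℕ) ≤ atTop := Nat.hyperfilter_le_atTop
  filter_upwards [this h] with k hk using hk.symm

lemma tl_comm (a b : CC) : tl (a * b) = tl (b * a) := by
  refine tendsto_nhds_unique (tl_spec _) ((tl_spec _).congr fun k => ?_)
  change ntr k (b k * a k) = ntr k (a k * b k)
  rw [ntr, ntr, trace_mul_comm]

/-- The limit trace as a positive functional. -/
noncomputable def tp : CC →ₚ[ℂ] ℂ :=
  PositiveLinearMap.mk₀
    { toFun := tl
      map_add' := fun a b => by
        refine tendsto_nhds_unique (tl_spec _) (((tl_spec a).add (tl_spec b)).congr fun k => ?_)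
        change _ = ntr k (a k + b k)
        rw [ntr, ntr, ntr, trace_add, add_div]
      map_smul' := fun c a => by
        refine tendsto_nhds_unique (tl_spec _) (((tl_spec a).const_smul c).congr fun k => ?_)
        change _ = ntr k (c • a k)
        rw [ntr, ntr, trace_smul, smul_eq_mul, smul_eq_mul, mul_div_assoc] }
    (by
      intro a ha
      obtain ⟨b, rfl⟩ := CStarAlgebra.nonneg_iff_eq_star_mul_self.1 ha
      refine ge_of_tendsto' (tl_spec _) fun k => ?_
      change 0 ≤ ntr k ((b k)ᴴ * b k)
      exact div_nonneg (posSemidef_conjTranspose_mul_self _).trace_nonneg (Nat.cast_nonneg _))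

lemma tp_apply (b : CC) : tp b = tl b := rfl

/-- The vector of an element. -/
noncomputable def vec (b : CC) : tp.GNS := (tp.toPreGNS b : tp.PreGNS)

lemma act_vec (a b : CC) : tp.gnsNonUnitalStarAlgHom a (vec b) = vec (a * b) :=
  PositiveLinearMap.gnsNonUnitalStarAlgHom_apply_coe tp

lemma inner_vec (a b : CC) : ⟪vec a, vec b⟫_ℂ = tl (star a * b) :=
  UniformSpace.Completion.inner_coe (tp.toPreGNS a) (tp.toPreGNS b)

lemma vec_eq {a b : CC} (h : ∀ᶠ k in atTop, a k = b k) : vec a = vec b := by
  have h1 : vec a - vec b = vec (a - b) := (UniformSpace.Completion.coe_sub _ _).symm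
  rw [← sub_eq_zero, h1, ← inner_self_eq_zero (𝕜 := ℂ), inner_vec]
  apply tl_eq
  filter_upwards [h] with k hk
  change ntr k (star (a k - b k) * (a k - b k)) = 0
  rw [hk, sub_self, mul_zero, ntr, trace_zero, zero_div]

lemma dense_vec : DenseRange vec := UniformSpace.Completion.denseRange_coe (α := tp.PreGNS)

lemma op_ext {S T : tp.GNS →L[ℂ] tp.GNS} (h : ∀ b, S (vec b) = T (vec b)) : S = T := by
  ext x
  exact dense_vec.induction_on (p := fun x => S x = T x) x
    (isClosed_eq S.continuous T.continuous) h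

lemma psi_one (m : ℕ) : tp.gnsNonUnitalStarAlgHom (LL m 1) = 1 := by
  refine op_ext fun b => ?_
  rw [act_vec]
  apply vec_eq
  filter_upwards [eventually_ge_atTop m] with k hk
  change lift m k 1 * b k = b k
  rw [lift_one hk, one_mul]

/-- Level `m` acting on the GNS space. -/
noncomputable def psi (m : ℕ) : Mx m →⋆ₐ[ℂ] (tp.GNS →L[ℂ] tp.GNS) where
  toFun a := tp.gnsNonUnitalStarAlgHom (LL m a)
  map_one' := psi_one m
  map_mul' a b := by rw [map_mul, map_mul]
  map_zero' := by rw [map_zero, map_zero]
  map_add' a b := by rw [map_add, map_add]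
  commutes' c := by
    rw [Algebra.algebraMap_eq_smul_one, map_smul, map_smul, psi_one, Algebra.algebraMap_eq_smul_one]
  map_star' a := by rw [map_star, map_star]

lemma psi_vec (m : ℕ) (a : Mx m) (b : CC) : psi m a (vec b) = vec (LL m a * b) := act_vec _ _

lemma psi_omega (m : ℕ) (a : Mx m) : psi m a (vec (LL 0 1)) = vec (LL m a) := by
  rw [psi_vec]
  apply vec_eq
  refine Eventually.of_forall fun k => ?_
  change lift m k a * lift 0 k 1 = lift m k a
  rw [lift_one (Nat.zero_le k), mul_one]

lemma norm_vec_star (b : CC) : ‖vec (star b)‖ = ‖vec b‖ := by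
  rw [norm_eq_sqrt_re_inner (𝕜 := ℂ), norm_eq_sqrt_re_inner (𝕜 := ℂ), inner_vec, inner_vec,
    star_star, tl_comm]

/-- The tower. -/
noncomputable def tower : Tower Sx tp.GNS where
  Ψ := psi
  up m a := ⟨emb m a, op_ext fun b => by
    rw [psi_vec, psi_vec]
    apply vec_eq
    filter_upwards [eventually_ge_atTop (m + 1)] with k hk
    change lift (m + 1) k (emb m a) * b k = lift m k a * b k
    rw [lift_emb hk]⟩
  Ω := vec (LL 0 1)
  tr m a := by
    rw [psi_omega, inner_vec]
    apply tl_eq
    filter_upwards [eventually_ge_atTop m] with k hk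
    change ntr k (star (lift 0 k 1) * lift m k a) = ntr m a
    rw [lift_one (Nat.zero_le k), star_one, one_mul, ntr_lift hk]
  card m := by rw [sx_card]; exact Nat.lt_two_pow_self
  dom := by
    refine dense_vec.mono ?_
    rintro _ ⟨c, rfl⟩
    refine ⟨‖c‖, norm_nonneg _, fun m a => ?_⟩
    rw [psi_vec, psi_omega, ← norm_vec_star, star_mul, ← act_vec, ← norm_vec_star (LL m a)]
    refine (ContinuousLinearMap.le_opNorm _ _).trans (mul_le_mul_of_nonneg_right ?_ (norm_nonneg _))
    exact (NonUnitalStarAlgHom.norm_apply_le _ _).trans (norm_star c).le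

end Vale.Agent.P070
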