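import Vale.Agent.P070.Main

/-! From a tower of matrix algebras with a trace vector to the package of properties. -/

namespace Vale.Agent.P070

open scoped InnerProductSpace ComplexOrder
open Filter Topology Matrix

section
variable {n : Type*} [Fintype n] [DecidableEq n]

lemma proj_diag {E : Matrix n n ℂ} (hE : IsStarProjection E) :
    ∃ (U : Matrix n n ℂ) (s : Finset n), star U * U = 1 ∧ U * star U = 1 ∧
      E = U * diagonal (fun i => if i ∈ s then 1 else 0) * star U := by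
  have hH : E.IsHermitian := hE.isSelfAdjoint
  have h1 := hH.spectral_theorem
  have h2 := hH.conjStarAlgAut_star_eigenvectorUnitary
  have h3 : (diagonal (RCLike.ofReal ∘ hH.eigenvalues) : Matrix n n ℂ) *
      diagonal (RCLike.ofReal ∘ hH.eigenvalues) = diagonal (RCLike.ofReal ∘ hH.eigenvalues) := by
    rw [← h2, ← map_mul, hE.isIdempotentElem.eq]
  rw [diagonal_mul_diagonal] at h3
  have h4 := diagonal_injective h3
  refine ⟨hH.eigenvectorUnitary, Finset.univ.filter fun i => hH.eigenvalues i = 1,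
    Unitary.coe_star_mul_self _, Unitary.coe_mul_star_self _, ?_⟩
  have h5 : (RCLike.ofReal ∘ hH.eigenvalues : n → ℂ) =
      fun i => if i ∈ Finset.univ.filter fun i => hH.eigenvalues i = 1 then 1 else 0 := by
    funext i
    have h6 := congrFun h4 i
    simp only [Function.comp_apply] at h6 ⊢
    simp only [Finset.mem_filter, Finset.mem_univ, true_and]
    split_ifs with h
    · rw [h]; simp
    · by_contra hne
      apply h
      have := mul_left_cancel₀ hne (h6.trans (mul_one _).symm)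
      exact RCLike.ofReal_injective (K := ℂ) (by simpa using this)
  rw [← h5]
  exact h1

lemma mat_cmp {E F : Matrix n n ℂ} (hE : IsStarProjection E) (hF : IsStarProjection F)
    (h : E.trace.re ≤ F.trace.re) : ∃ W : Matrix n n ℂ, star W * W = E ∧ F * W = W := by
  obtain ⟨U, s, U₁, U₂, rfl⟩ := proj_diag hE
  obtain ⟨V, t, V₁, V₂, rfl⟩ := proj_diag hF
  have tr : ∀ (U : Matrix n n ℂ) (s : Finset n), star U * U = 1 →
      (U * diagonal (fun i => if i ∈ s then (1 : ℂ) else 0) * star U).trace.re = s.card := by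
    intro U s h
    rw [trace_mul_comm, ← mul_assoc, h, one_mul, trace_diagonal]
    simp
  rw [tr U s U₁, tr V t V₁] at h
  have hc : Fintype.card s ≤ Fintype.card t := by simpa using h
  obtain ⟨σ⟩ := Function.Embedding.nonempty_of_card_le hc
  obtain ⟨π, hπ⟩ := Equiv.Perm.exists_extending_pair (f := fun i : s => (i : n))
    (g := fun i : s => (σ i : n)) Subtype.val_injective (Subtype.val_injective.comp σ.injective)
  let Q : Matrix n n ℂ := (1 : Matrix n n ℂ).submatrix (Equiv.refl n) π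
  have hQ : star Q * Q = 1 := by
    change Qᴴ * Q = 1
    rw [conjTranspose_submatrix, conjTranspose_one, submatrix_mul_equiv, one_mul,
      submatrix_one_equiv]
  set Ds : Matrix n n ℂ := diagonal (fun i => if i ∈ s then (1 : ℂ) else 0) with hDs
  set Dt : Matrix n n ℂ := diagonal (fun i => if i ∈ t then (1 : ℂ) else 0) with hDt
  have d₁ : star Ds = Ds := by
    change Dsᴴ = Ds
    rw [hDs, diagonal_conjTranspose]
    congr 1; funext i; simp
  have d₂ : Ds * Ds = Ds := by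
    rw [hDs, diagonal_mul_diagonal]
    congr 1; funext i; split_ifs <;> simp
  have d₃ : Dt * (Q * Ds) = Q * Ds := by
    ext a b
    rw [hDt, hDs, diagonal_mul, mul_diagonal]
    by_cases hb : b ∈ s
    · by_cases ha : a = π b
      · have : a ∈ t := by rw [ha, hπ ⟨b, hb⟩]; exact (σ ⟨b, hb⟩).2
        simp [this]
      · simp [Q, one_apply, ha]
    · simp [hb]
  refine ⟨V * (Q * Ds) * star U, ?_, ?_⟩
  · rw [star_mul, star_mul, star_mul, star_star, d₁]
    calc U * (Ds * star Q * star V) * (V * (Q * Ds) * star U)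
        = U * Ds * (star Q * (star V * V) * Q) * Ds * star U := by simp only [mul_assoc]
      _ = _ := by rw [V₁, mul_one, hQ, mul_one, mul_assoc U, d₂]
  · calc V * Dt * star V * (V * (Q * Ds) * star U)
        = V * (Dt * (star V * V) * (Q * Ds)) * star U := by simp only [mul_assoc]
      _ = _ := by rw [V₁, mul_one, d₃]

end

section
variable {K : Type*} [NormedAddCommGroup K] [InnerProductSpace ℂ K] [CompleteSpace K]

lemma spec_op (s : StarSubalgebra ℂ (K →L[ℂ] K)) (hs : IsClosed (s : Set (K →L[ℂ] K)))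
    {x y r : K →L[ℂ] K} (hx : x ∈ s) (hy : y ∈ s)
    (hfin : (spectrum ℝ (star x * x + star y * y)).Finite)
    (hr : IsStarProjection r) (hxr : x * r = x) (hyr : y * r = y) {η : ℝ} (hη : 0 < η) :
    ∃ e ∈ s, ∃ z ∈ s, IsStarProjection e ∧ Commute e r ∧
      (η : ℂ) • (1 - e) + star z * z = star x * x + star y * y ∧
      ‖x * e‖ ^ 2 ≤ η ∧ ‖y * e‖ ^ 2 ≤ η := by
  set h := star x * x + star y * y with hh
  have hmem : h ∈ s := add_mem (mul_mem (star_mem hx) hx) (mul_mem (star_mem hy) hy)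
  have h0 : 0 ≤ h := add_nonneg (star_mul_self_nonneg x) (star_mul_self_nonneg y)
  have hsa : IsSelfAdjoint h := h0.isSelfAdjoint
  have hcont : ∀ f : ℝ → ℝ, ContinuousOn f (spectrum ℝ h) := fun f => hfin.continuousOn f
  have hhr : h * r = h := by rw [hh, add_mul, mul_assoc, mul_assoc, hxr, hyr]
  have hcomm : Commute h r := by
    have := congrArg star hhr
    rw [star_mul, hr.isSelfAdjoint.star_eq, hsa.star_eq] at this
    exact hhr.trans this.symm
  let χ : ℝ → ℝ := fun t => if t ≤ η then 1 else 0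
  let φ : ℝ → ℝ := fun t => √(t - η * (1 - χ t))
  have he : IsStarProjection (cfc χ h) := by
    refine ⟨?_, cfc_predicate χ h⟩
    change cfc χ h * cfc χ h = cfc χ h
    rw [← cfc_mul χ χ h (hcont _) (hcont _)]
    congr 1; funext t; simp only [χ]; split_ifs <;> simp
  have hnorm : ‖h * cfc χ h‖ ≤ η := by
    have : h * cfc χ h = cfc (fun t => t * χ t) h := by
      rw [cfc_mul (fun t => t) χ h (hcont _) (hcont _), cfc_id' ℝ h]
    rw [this]
    refine norm_cfc_le hη.le fun t ht => ?_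
    have := spectrum_nonneg_of_nonneg h0 ht
    simp only [χ]
    split_ifs with h1
    · rw [mul_one, Real.norm_of_nonneg this]; exact h1
    · simpa using hη.le
  have hb : ∀ u : K →L[ℂ] K, star u * u ≤ h → ‖u * cfc χ h‖ ^ 2 ≤ η := by
    intro u hu
    rw [sq, ← CStarRing.norm_star_mul_self]
    have h1 : star (u * cfc χ h) * (u * cfc χ h) = star (cfc χ h) * (star u * u) * cfc χ h := by
      rw [star_mul]; simp only [mul_assoc]
    have h2 := star_left_conjugate_le_conjugate hu (cfc χ h)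
    refine (CStarAlgebra.norm_le_norm_of_nonneg_of_le (star_mul_self_nonneg _) (h1 ▸ h2)).trans ?_
    rw [he.isSelfAdjoint.star_eq, mul_assoc]
    exact (norm_pl he _).trans hnorm
  refine ⟨cfc χ h, cfc_mem (𝕜' := ℂ) χ hmem, cfc φ h, cfc_mem (𝕜' := ℂ) φ hmem, he,
    hcomm.cfc_real χ, ?_, hb x (le_add_of_nonneg_right (star_mul_self_nonneg y)),
    hb y (le_add_of_nonneg_left (star_mul_self_nonneg x))⟩
  have e1 : (η : ℂ) • (1 - cfc χ h) = cfc (fun t => η * (1 - χ t)) h := by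
    rw [cfc_const_mul η _ h (hcont _), cfc_sub (fun _ => 1) χ h (hcont _) (hcont _),
      cfc_const_one ℝ h]
    rfl
  have e2 : IsSelfAdjoint (cfc φ h) := cfc_predicate φ h
  rw [e1, e2.star_eq, ← cfc_mul φ φ h (hcont _) (hcont _),
    ← cfc_add h _ _ (hcont _) (hcont _)]
  conv_rhs => rw [← cfc_id' ℝ h]
  refine cfc_congr fun t ht => ?_
  have h1 := spectrum_nonneg_of_nonneg h0 ht
  have h2 : 0 ≤ t - η * (1 - χ t) := by
    simp only [χ]
    split_ifs with h3
    · simpa using h1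
    · push Not at h3
      linarith
  simp only [φ]
  rw [Real.mul_self_sqrt h2]
  ring

/-- A tower of matrix algebras acting on `K` with a trace vector. -/
structure Tower (S : ℕ → Type) [∀ m, Fintype (S m)] [∀ m, DecidableEq (S m)] (K : Type*)
    [NormedAddCommGroup K] [InnerProductSpace ℂ K] [CompleteSpace K] where
  Ψ : ∀ m, Matrix (S m) (S m) ℂ →⋆ₐ[ℂ] (K →L[ℂ] K)
  up : ∀ m a, ∃ b, Ψ (m + 1) b = Ψ m a
  Ω : K
  tr : ∀ m a, ⟪Ω, Ψ m a Ω⟫_ℂ = a.trace / Fintype.card (S m)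
  card : ∀ m, m < Fintype.card (S m)
  dom : Dense {ξ : K | ∃ C : ℝ, 0 ≤ C ∧ ∀ m a, ‖Ψ m a ξ‖ ≤ C * ‖Ψ m a Ω‖}

namespace Tower
variable {S : ℕ → Type} [∀ m, Fintype (S m)] [∀ m, DecidableEq (S m)] (T : Tower S K)

lemma up' {m k : ℕ} (h : m ≤ k) (a : Matrix (S m) (S m) ℂ) : ∃ b, T.Ψ k b = T.Ψ m a := by
  induction k, h using Nat.le_induction with
  | base => exact ⟨a, rfl⟩
  | succ k _ ih =>
    obtain ⟨b, hb⟩ := ih
    obtain ⟨c, hc⟩ := T.up k b
    exact ⟨c, hc.trans hb⟩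

lemma two {x y : K →L[ℂ] K} (hx : ∃ m a, T.Ψ m a = x) (hy : ∃ m a, T.Ψ m a = y) :
    ∃ m a b, T.Ψ m a = x ∧ T.Ψ m b = y := by
  obtain ⟨m, a, rfl⟩ := hx
  obtain ⟨k, b, rfl⟩ := hy
  obtain ⟨a', ha⟩ := T.up' (le_max_left m k) a
  obtain ⟨b', hb⟩ := T.up' (le_max_right m k) b
  exact ⟨_, a', b', ha, hb⟩

/-- The union of the tower. -/
noncomputable def D : StarSubalgebra ℂ (K →L[ℂ] K) where
  carrier := {x | ∃ m a, T.Ψ m a = x}
  mul_mem' := fun hx hy => by
    obtain ⟨m, a, b, rfl, rfl⟩ := T.two hx hy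
    exact ⟨m, a * b, map_mul _ _ _⟩
  add_mem' := fun hx hy => by
    obtain ⟨m, a, b, rfl, rfl⟩ := T.two hx hy
    exact ⟨m, a + b, map_add _ _ _⟩
  algebraMap_mem' := fun c => ⟨0, algebraMap _ _ c, AlgHomClass.commutes _ c⟩
  star_mem' := by
    rintro _ ⟨m, a, rfl⟩
    exact ⟨m, star a, map_star _ _⟩

/-- The trace. -/
noncomputable def τ : T.D →ₗ[ℂ] ℂ where
  toFun d := ⟪T.Ω, (d : K →L[ℂ] K) T.Ω⟫_ℂ
  map_add' a b := by rw [← inner_add_right]; rfl
  map_smul' c a := by rw [RingHom.id_apply, smul_eq_mul, ← inner_smul_right]; rfl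

lemma τ_sq (a : T.D) : (T.τ (star a * a)).re = ‖(a : K →L[ℂ] K) T.Ω‖ ^ 2 := by
  have := inner_star_mul T.D.subtype a T.Ω
  change T.τ (star a * a) = _ at this
  rw [this, Complex.ofReal_re]; rfl

include T in
lemma card_pos (m : ℕ) : (0 : ℝ) < Fintype.card (S m) := by
  exact_mod_cast (Nat.zero_le m).trans_lt (T.card m)

lemma inj (m : ℕ) : Function.Injective (T.Ψ m) := by
  rw [injective_iff_map_eq_zero]
  intro a ha
  have h := T.tr m (star a * a)
  rw [map_mul, ha, mul_zero, _root_.zero_apply, inner_zero_right, eq_comm, div_eq_zero_iff] at h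
  rcases h with h | h
  · exact trace_conjTranspose_mul_self_eq_zero_iff.1 h
  · have := T.card_pos m
    exact absurd (by exact_mod_cast h) this.ne'

lemma proj_of {m : ℕ} {a : Matrix (S m) (S m) ℂ} (h : IsStarProjection (T.Ψ m a)) :
    IsStarProjection a :=
  ⟨T.inj m (by rw [map_mul]; exact h.isIdempotentElem.eq),
    T.inj m (by rw [map_star]; exact h.isSelfAdjoint.star_eq)⟩

lemma proj_coe {e : T.D} (h : IsStarProjection (e : K →L[ℂ] K)) : IsStarProjection e :=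
  ⟨Subtype.ext h.isIdempotentElem.eq, Subtype.ext h.isSelfAdjoint.star_eq⟩

/-- The package of properties. -/
noncomputable def pkg : Pkg T.D where
  τ := T.τ
  tr := by
    rintro ⟨x, hx⟩ ⟨y, hy⟩
    obtain ⟨m, a, b, rfl, rfl⟩ := T.two hx hy
    change ⟪T.Ω, (T.Ψ m a * T.Ψ m b) T.Ω⟫_ℂ = ⟪T.Ω, (T.Ψ m b * T.Ψ m a) T.Ω⟫_ℂ
    rw [← map_mul, ← map_mul, T.tr, T.tr, trace_mul_comm]
  bound := by
    intro a x
    rw [τ_sq]
    change ‖⟪T.Ω, T.D.subtype (star a * x * a) T.Ω⟫_ℂ‖ ≤ _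
    rw [mul_assoc, rep_mul, ← inner_rep, rep_mul]
    refine (norm_inner_le_norm _ _).trans ?_
    have := (x : K →L[ℂ] K).le_opNorm ((a : K →L[ℂ] K) T.Ω)
    change ‖(a : K →L[ℂ] K) T.Ω‖ * ‖(x : K →L[ℂ] K) ((a : K →L[ℂ] K) T.Ω)‖ ≤
      ‖(x : K →L[ℂ] K)‖ * _
    nlinarith [norm_nonneg ((a : K →L[ℂ] K) T.Ω)]
  spec := by
    rintro ⟨x, hx⟩ ⟨y, hy⟩ r hr hxr hyr η hη
    obtain ⟨m, a, b, rfl, rfl⟩ := T.two hx hy
    have hcl : IsClosed ((T.Ψ m).range : Set (K →L[ℂ] K)) :=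
      Submodule.closed_of_finiteDimensional
        (LinearMap.range (T.Ψ m : Matrix (S m) (S m) ℂ →ₗ[ℂ] (K →L[ℂ] K)))
    have hfin : (spectrum ℝ (star (T.Ψ m a) * T.Ψ m a + star (T.Ψ m b) * T.Ψ m b)).Finite := by
      rw [← map_star, ← map_star, ← map_mul, ← map_mul, ← map_add]
      exact Matrix.finite_real_spectrum.subset (AlgHom.spectrum_apply_subset
        ((T.Ψ m : Matrix (S m) (S m) ℂ →ₐ[ℂ] (K →L[ℂ] K)).restrictScalars ℝ) _)
    obtain ⟨_, ⟨e, rfl⟩, _, ⟨z, rfl⟩, h1, h2, h3, h4, h5⟩ := spec_op (T.Ψ m).range hcl ⟨a, rfl⟩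
      ⟨b, rfl⟩ hfin (coe_proj hr) (congrArg Subtype.val hxr) (congrArg Subtype.val hyr) hη
    exact ⟨⟨_, m, e, rfl⟩, ⟨_, m, z, rfl⟩, T.proj_coe h1, Subtype.ext h2.eq, Subtype.ext h3, h4, h5⟩
  span := by
    let g : (Σ m, S m × S m) → T.D := fun i => ⟨T.Ψ i.1 (single i.2.1 i.2.2 1), i.1, _, rfl⟩
    have : Nonempty (S 0) := Fintype.card_pos_iff.1 (T.card 0)
    have : Nonempty (Σ m, S m × S m) := ⟨⟨0, Classical.arbitrary _⟩⟩
    obtain ⟨u, hu⟩ := exists_surjective_nat (Σ m, S m × S m)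
    refine ⟨g ∘ u, ?_⟩
    rw [hu.range_comp, eq_top_iff]
    rintro ⟨_, m, a, rfl⟩ -
    have : (⟨T.Ψ m a, m, a, rfl⟩ : T.D) = ∑ i, ∑ j, a i j • g ⟨m, i, j⟩ := by
      apply Subtype.ext
      simp only [AddSubmonoidClass.coe_finsetSum, SetLike.val_smul, g, ← map_smul, smul_single,
        smul_eq_mul, mul_one]
      conv_lhs => rw [matrix_eq_sum_single a]
      simp only [map_sum]
    rw [this]
    exact Submodule.sum_mem _ fun i _ => Submodule.sum_mem _ fun j _ =>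
      Submodule.smul_mem _ _ (Submodule.subset_span ⟨_, rfl⟩)
  cmp := by
    rintro ⟨x, hx⟩ ⟨y, hy⟩ he hf h
    obtain ⟨m, a, b, rfl, rfl⟩ := T.two hx hy
    change (⟪T.Ω, T.Ψ m a T.Ω⟫_ℂ).re ≤ (⟪T.Ω, T.Ψ m b T.Ω⟫_ℂ).re at h
    rw [T.tr, T.tr, Complex.div_natCast_re, Complex.div_natCast_re,
      div_le_div_iff_of_pos_right (T.card_pos m)] at h
    obtain ⟨W, h1, h2⟩ := mat_cmp (T.proj_of (coe_proj he)) (T.proj_of (coe_proj hf)) h
    refine ⟨⟨_, m, W, rfl⟩, Subtype.ext ?_, Subtype.ext ?_⟩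
    · change star (T.Ψ m W) * T.Ψ m W = T.Ψ m a
      rw [← map_star, ← map_mul, h1]
    · change T.Ψ m b * T.Ψ m W = T.Ψ m W
      rw [← map_mul, h2]
  part := by
    intro M
    let u := (Fintype.equivFin (S M)).symm
    refine ⟨Fintype.card (S M), (T.card M).le,
      fun j => ⟨T.Ψ M (diagonal (Pi.single (u j) 1)), M, _, rfl⟩, fun j => ⟨?_, ?_⟩, ?_⟩
    · apply T.proj_coe
      refine IsStarProjection.map ⟨?_, ?_⟩ (T.Ψ M)
      · change diagonal _ * diagonal _ = diagonal _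
        rw [diagonal_mul_diagonal]
        congr 1; funext i; by_cases h : i = u j <;> simp [h]
      · change (diagonal _)ᴴ = diagonal _
        rw [diagonal_conjTranspose]
        congr 1; funext i; by_cases h : i = u j <;> simp [h]
    · change (⟪T.Ω, T.Ψ M _ T.Ω⟫_ℂ).re ≤ _
      rw [T.tr, Complex.div_natCast_re, trace_diagonal]
      simp
    · apply Subtype.ext
      simp only [AddSubmonoidClass.coe_finsetSum, ← map_sum]
      rw [Equiv.sum_comp u (fun i => (diagonal (Pi.single i 1) : Matrix (S M) (S M) ℂ))]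
      have : ∑ i : S M, (diagonal (Pi.single i 1) : Matrix (S M) (S M) ℂ) = 1 := by
        ext a b
        by_cases h : a = b
        · subst h; simp [Matrix.sum_apply, Pi.single_apply]
        · simp [Matrix.sum_apply, h]
      rw [this, map_one]; rfl

lemma strong (x : K) (ε : ℝ) (hε : 0 < ε) : ∃ δ : ℝ, 0 < δ ∧ ∀ e : T.D, IsStarProjection e →
    (T.pkg.τ e).re ≤ δ → ‖(e : K →L[ℂ] K) x‖ ≤ ε := by
  obtain ⟨ξ, ⟨C, hC, hξ⟩, hd⟩ := Metric.mem_closure_iff.1 (T.dom x) (ε / 2) (by positivity)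
  refine ⟨(ε / 2 / (C + 1)) ^ 2, by positivity, fun e he h => ?_⟩
  have h1 : (T.pkg.τ e).re = ‖(e : K →L[ℂ] K) T.Ω‖ ^ 2 := by
    rw [← τ_sq, he.isSelfAdjoint.star_eq, he.isIdempotentElem.eq]; rfl
  rw [h1] at h
  have h2 : ‖(e : K →L[ℂ] K) T.Ω‖ ≤ ε / 2 / (C + 1) := le_of_sq_le_sq h (by positivity)
  have h3 : ‖(e : K →L[ℂ] K) ξ‖ ≤ C * ‖(e : K →L[ℂ] K) T.Ω‖ := by
    obtain ⟨_, m, a, rfl⟩ := e
    exact hξ m a
  have h4 := proj_norm_le (coe_proj he) (x - ξ)
  rw [dist_eq_norm] at hd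
  rw [le_div_iff₀ (by positivity)] at h2
  have h5 : (e : K →L[ℂ] K) x = (e : K →L[ℂ] K) (x - ξ) + (e : K →L[ℂ] K) ξ := by
    rw [← map_add, sub_add_cancel]
  rw [h5]
  refine (norm_add_le _ _).trans ?_
  nlinarith [norm_nonneg ((e : K →L[ℂ] K) T.Ω)]

lemma infinite (A : StarSubalgebra ℂ (K →L[ℂ] K)) (h : T.D ≤ A) : ¬ FiniteDimensional ℂ A := by
  intro hA
  set m := Module.finrank ℂ A
  let φ : Matrix (S m) (S m) ℂ →ₗ[ℂ] A :=
    LinearMap.codRestrict A.toSubalgebra.toSubmodule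
      (T.Ψ m : Matrix (S m) (S m) ℂ →ₗ[ℂ] (K →L[ℂ] K)) fun a => h ⟨m, a, rfl⟩
  have hφ : Function.Injective φ := fun a b hab => T.inj m (congrArg Subtype.val hab)
  have h1 := LinearMap.finrank_le_finrank_of_injective hφ
  rw [Module.finrank_matrix, Module.finrank_self, mul_one] at h1
  have h2 := T.card m
  nlinarith

end Tower

end

end Vale.Agent.P070
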